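import Mathlib

namespace Vale.Agent.Lib.P078

variable {H : Type*} [NormedAddCommGroup H] [InnerProductSpace ℂ H] [CompleteSpace H]

/-- The algebra of all bounded operators on `H`, as a von Neumann algebra. -/
noncomputable def fullAlgebra (H : Type*) [NormedAddCommGroup H] [InnerProductSpace ℂ H]
    [CompleteSpace H] : VonNeumannAlgebra H where
  toStarSubalgebra := ⊤
  centralizer_centralizer' := by
    apply Set.eq_univ_of_forall
    intro x y hy
    exact (hy x (Set.mem_univ x)).symm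

/-- `A` is a maximal abelian self-adjoint subalgebra (MASA) of the von Neumann algebra `M`:
an abelian star-subalgebra of `M` containing every element of `M` that commutes with it. -/
def IsMASA (M : VonNeumannAlgebra H) (A : StarSubalgebra ℂ (H →L[ℂ] H)) : Prop :=
  (∀ a ∈ A, a ∈ M) ∧ (∀ a ∈ A, ∀ b ∈ A, a * b = b * a) ∧
    ∀ m ∈ M, (∀ a ∈ A, m * a = a * m) → m ∈ A

/-- `A` is diffuse: it has no minimal projection, i.e. below every nonzero projection of `A`
there is a nonzero, strictly smaller projection of `A`. -/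
def IsDiffuse (A : StarSubalgebra ℂ (H →L[ℂ] H)) : Prop :=
  ∀ p ∈ A, IsStarProjection p → p ≠ 0 →
    ∃ p' ∈ A, IsStarProjection p' ∧ p' ≠ 0 ∧ p' ≠ p ∧ p * p' = p'

/-- A partition in `A` with `r` pieces: mutually orthogonal projections of `A` with sum `1`
(zeros allowed). -/
structure IsPartition (A : StarSubalgebra ℂ (H →L[ℂ] H)) {r : ℕ}
    (p : Fin r → H →L[ℂ] H) : Prop where
  mem : ∀ i, p i ∈ A
  proj : ∀ i, IsStarProjection (p i)
  orth : ∀ i j, i ≠ j → p i * p j = 0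
  sum_eq : ∑ i, p i = 1

/-- The pinching `S_P(x) = ∑ p_i x p_i`. -/
noncomputable def pinching {r : ℕ} (p : Fin r → H →L[ℂ] H) (x : H →L[ℂ] H) : H →L[ℂ] H :=
  ∑ i, p i * x * p i

/-- `x` is `(ε, r)` so-pavable over `A` (inside `M`). -/
def SoPavable (M : VonNeumannAlgebra H) (A : StarSubalgebra ℂ (H →L[ℂ] H))
    (x : H →L[ℂ] H) (ε : ℝ) (r : ℕ) : Prop :=
  ∀ (F : Finset H) (δ : ℝ), 0 < δ →
    ∃ (p : Fin r → H →L[ℂ] H) (a q : H →L[ℂ] H),
      IsPartition A p ∧ a ∈ A ∧ IsSelfAdjoint a ∧ ‖a‖ ≤ ‖x‖ ∧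
      q ∈ M ∧ IsStarProjection q ∧ (∀ ξ ∈ F, ‖(1 - q) ξ‖ < δ) ∧
      ‖q * (pinching p x - a) * q‖ ≤ ε * ‖x‖

/-- Every self-adjoint element of `M` is `(ε, r)` so-pavable over `A`. -/
def AllSoPavable (M : VonNeumannAlgebra H) (A : StarSubalgebra ℂ (H →L[ℂ] H))
    (ε : ℝ) (r : ℕ) : Prop :=
  ∀ x ∈ M, IsSelfAdjoint x → SoPavable M A x ε r

/-- The so-paving number `n_{A ⊆ M}(ε)`: the least `r ≥ 1` such that every self-adjoint
element of `M` is `(ε, r)` so-pavable, and `⊤` if there is none. -/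
noncomputable def pavingNumber (M : VonNeumannAlgebra H) (A : StarSubalgebra ℂ (H →L[ℂ] H))
    (ε : ℝ) : ℕ∞ :=
  sInf {n : ℕ∞ | ∃ r : ℕ, 1 ≤ r ∧ (r : ℕ∞) = n ∧ AllSoPavable M A ε r}

end Vale.Agent.Lib.P078
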