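import Vale.Agent.Lib.P078.Lower

namespace Vale.Agent.Lib.P078

open scoped InnerProductSpace

set_option linter.unusedSectionVars false

variable {H : Type*} [NormedAddCommGroup H] [InnerProductSpace ℂ H] [CompleteSpace H]

theorem isDiffuse_of_finelyDivisible {S : Set (H →L[ℂ] H)} {A : StarSubalgebra ℂ (H →L[ℂ] H)}
    (hSA : S ⊆ A) (hAc : ∀ a ∈ A, ∀ b ∈ A, a * b = b * a) (hS : FinelyDivisible S) :
    IsDiffuse A := by
  intro p hpA hp hp0
  have hpp : p * p = p := hp.isIdempotentElem
  obtain ⟨v, hv⟩ : ∃ v, p v ≠ 0 := by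
    by_contra hcon
    push Not at hcon
    exact hp0 (ContinuousLinearMap.ext (fun v => by simpa using hcon v))
  have hnv : ‖p v‖ ≠ 0 := norm_ne_zero_iff.mpr hv
  set ζ : H := ((‖p v‖⁻¹ : ℝ) : ℂ) • p v with hζdef
  have hζ : ‖ζ‖ = 1 := by
    rw [hζdef, norm_smul, Complex.norm_real, norm_inv, norm_norm, inv_mul_cancel₀ hnv]
  have hpζ : p ζ = ζ := by
    rw [hζdef, map_smul]
    congr 1
    have := congrArg (fun R : H →L[ℂ] H => R v) hpp
    simpa [mul_apply_eq_comp] using this
  obtain ⟨L, f, hfS, hf, hsmall⟩ := exists_small_pieces hS hζ (τ := 1 / 2) (by norm_num)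
  obtain ⟨l, hl⟩ : ∃ l, f l ζ ≠ 0 := by
    by_contra hcon
    push Not at hcon
    have h1 := hf.sum_norm_sq ζ
    simp only [hcon, norm_zero, hζ] at h1
    simp at h1
  have hc : p * f l = f l * p := hAc p hpA (f l) (hSA (hfS l))
  have hff : f l * f l = f l := (hf.proj l).isIdempotentElem
  have happ : (p * f l) ζ = f l ζ := by
    rw [hc]
    simp [mul_apply_eq_comp, hpζ]
  refine ⟨p * f l, A.mul_mem hpA (hSA (hfS l)), ?_, ?_, ?_, ?_⟩
  · rw [isStarProjection_iff]
    constructor
    · show p * f l * (p * f l) = p * f l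
      calc p * f l * (p * f l) = p * (f l * p) * f l := by simp only [mul_assoc]
        _ = p * (p * f l) * f l := by rw [hc]
        _ = (p * p) * (f l * f l) := by simp only [mul_assoc]
        _ = p * f l := by rw [hpp, hff]
    · rw [IsSelfAdjoint, star_mul, hp.isSelfAdjoint.star_eq, (hf.proj l).isSelfAdjoint.star_eq, hc]
  · intro h0
    apply hl
    rw [← happ, h0]
    simp
  · intro h0
    have h1 : f l ζ = ζ := by rw [← happ, h0, hpζ]
    have h2 := hsmall l
    rw [h1, hζ] at h2
    norm_num at h2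
  · rw [← mul_assoc, hpp]

end Vale.Agent.Lib.P078
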