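import Mathlib

namespace Vale.Agent.Lib.P078

open scoped InnerProductSpace

set_option linter.unusedSectionVars false

variable {H : Type*} [NormedAddCommGroup H] [InnerProductSpace ℂ H] [CompleteSpace H]

lemma sa_inner {T : H →L[ℂ] H} (hT : IsSelfAdjoint T) (u v : H) :
    ⟪T u, v⟫_ℂ = ⟪u, T v⟫_ℂ := by
  have h := ContinuousLinearMap.adjoint_inner_left T v u
  rw [ContinuousLinearMap.isSelfAdjoint_iff'.mp hT] at h
  exact h

/-- a finite partition of unity by mutually orthogonal projections -/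
structure POU {ι : Type*} [Fintype ι] (f : ι → H →L[ℂ] H) : Prop where
  proj : ∀ l, IsStarProjection (f l)
  orth : ∀ l l', l ≠ l' → f l * f l' = 0
  sum_eq : ∑ l, f l = 1

namespace POU

variable {ι : Type*} [Fintype ι] {f : ι → H →L[ℂ] H}

lemma inner_left (hf : POU f) (l : ι) (u v : H) : ⟪f l u, v⟫_ℂ = ⟪u, f l v⟫_ℂ :=
  sa_inner (hf.proj l).isSelfAdjoint u v

lemma idem (hf : POU f) (l : ι) (u : H) : f l (f l u) = f l u := by
  have h := (hf.proj l).isIdempotentElem
  have := congrArg (fun T : H →L[ℂ] H => T u) h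
  simpa using this

lemma orth_apply (hf : POU f) {l l' : ι} (h : l ≠ l') (u : H) : f l (f l' u) = 0 := by
  have := congrArg (fun T : H →L[ℂ] H => T u) (hf.orth l l' h)
  simpa using this

lemma sum_apply (hf : POU f) (u : H) : ∑ l, f l u = u := by
  have := congrArg (fun T : H →L[ℂ] H => T u) hf.sum_eq
  simpa using this

lemma sum_norm_sq (hf : POU f) (u : H) : ∑ l, ‖f l u‖ ^ 2 = ‖u‖ ^ 2 := by
  have h1 : ∀ l, ‖f l u‖ ^ 2 = (⟪f l u, u⟫_ℂ).re := by
    intro l
    rw [← inner_self_eq_norm_sq (𝕜 := ℂ), hf.inner_left l u (f l u), hf.idem, ← hf.inner_left]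
    rfl
  simp only [h1]
  rw [← Complex.re_sum, ← sum_inner, hf.sum_apply, ← inner_self_eq_norm_sq (𝕜 := ℂ)]
  rfl

lemma norm_apply_le (hf : POU f) (l : ι) (u : H) : ‖f l u‖ ≤ ‖u‖ := by
  have h := hf.sum_norm_sq u
  have h2 : ‖f l u‖ ^ 2 ≤ ∑ l, ‖f l u‖ ^ 2 :=
    Finset.single_le_sum (f := fun l => ‖f l u‖ ^ 2) (fun _ _ => by positivity) (Finset.mem_univ l)
  rw [h] at h2
  exact (sq_le_sq₀ (norm_nonneg _) (norm_nonneg _)).mp h2

variable [DecidableEq ι]

lemma apply_sum_smul (hf : POU f) (t : ι → ℂ) (u : H) (k : ι) :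
    f k (∑ l, t l • f l u) = t k • f k u := by
  rw [map_sum, Finset.sum_eq_single k]
  · rw [map_smul, hf.idem]
  · intro l _ hl
    rw [map_smul, hf.orth_apply (Ne.symm hl), smul_zero]
  · intro h; exact absurd (Finset.mem_univ k) h

lemma norm_sum_smul_le (hf : POU f) (t : ι → ℂ) (C : ℝ) (hC : 0 ≤ C) (ht : ∀ l, ‖t l‖ ≤ C) :
    ‖∑ l, t l • f l‖ ≤ C := by
  apply ContinuousLinearMap.opNorm_le_bound _ hC
  intro u
  have h0 : (∑ l, t l • f l) u = ∑ l, t l • f l u := by
    simp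
  rw [h0]
  have h1 : ‖∑ l, t l • f l u‖ ^ 2 ≤ (C * ‖u‖) ^ 2 := by
    rw [← hf.sum_norm_sq (∑ l, t l • f l u)]
    simp only [hf.apply_sum_smul, norm_smul, mul_pow]
    calc ∑ k, ‖t k‖ ^ 2 * ‖f k u‖ ^ 2 ≤ ∑ k, C ^ 2 * ‖f k u‖ ^ 2 := by
          refine Finset.sum_le_sum (fun k _ => ?_)
          apply mul_le_mul_of_nonneg_right _ (by positivity)
          exact pow_le_pow_left₀ (norm_nonneg _) (ht k) 2
      _ = C ^ 2 * ‖u‖ ^ 2 := by rw [← Finset.mul_sum, hf.sum_norm_sq]
  exact (sq_le_sq₀ (norm_nonneg _) (by positivity)).mp h1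

lemma isSelfAdjoint_sum_smul (hf : POU f) (t : ι → ℝ) :
    IsSelfAdjoint (∑ l, ((t l : ℝ) : ℂ) • f l) := by
  rw [IsSelfAdjoint, star_sum]
  refine Finset.sum_congr rfl (fun l _ => ?_)
  rw [star_smul, (hf.proj l).isSelfAdjoint.star_eq]
  simp

/-- grouping the pieces of a partition of unity according to a colouring -/
noncomputable def group (f : ι → H →L[ℂ] H) {r : ℕ} (c : ι → Fin r) (i : Fin r) : H →L[ℂ] H :=
  ∑ l, if c l = i then f l else 0

lemma group_mul_group (hf : POU f) {r : ℕ} (c : ι → Fin r) (i j : Fin r) :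
    group f c i * group f c j = if i = j then group f c i else 0 := by
  unfold group
  rw [Finset.sum_mul]
  have h : ∀ l, (if c l = i then f l else 0) * ∑ l', (if c l' = j then f l' else 0)
      = if i = j then (if c l = i then f l else 0) else 0 := by
    intro l
    rw [Finset.mul_sum, Finset.sum_eq_single l]
    · by_cases h1 : c l = i
      · by_cases h2 : i = j
        · subst h2
          simp [h1, (hf.proj l).isIdempotentElem.eq]
        · have : c l ≠ j := fun h => h2 (h1 ▸ h)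
          simp [h1, h2]
      · simp [h1]
    · intro l' _ hl'
      by_cases h1 : c l = i <;> by_cases h2 : c l' = j <;> simp [h1, h2, hf.orth l l' (Ne.symm hl')]
    · intro h; exact absurd (Finset.mem_univ l) h
  simp only [h]
  by_cases hij : i = j <;> simp [hij]

lemma group_isStarProjection (hf : POU f) {r : ℕ} (c : ι → Fin r) (i : Fin r) :
    IsStarProjection (group f c i) := by
  rw [isStarProjection_iff]
  constructor
  · have := hf.group_mul_group c i i
    simpa [IsIdempotentElem] using this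
  · unfold group
    rw [IsSelfAdjoint, star_sum]
    refine Finset.sum_congr rfl (fun l _ => ?_)
    split_ifs
    · exact (hf.proj l).isSelfAdjoint.star_eq
    · simp

lemma sum_group (hf : POU f) {r : ℕ} (c : ι → Fin r) : ∑ i, group f c i = 1 := by
  unfold group
  rw [Finset.sum_comm]
  simp only [Finset.sum_ite_eq, Finset.mem_univ, if_true]
  exact hf.sum_eq

end POU

/-- the finite rank operator `ξ ↦ ∑ ⟪e j, ξ⟫ e j` -/
noncomputable def projOn {κ : Type*} [Fintype κ] (e : κ → H) : H →L[ℂ] H :=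
  ∑ j, (innerSL ℂ (e j)).smulRight (e j)

section projOn

variable {κ : Type*} [Fintype κ] {e : κ → H}

lemma projOn_apply (e : κ → H) (ξ : H) : projOn e ξ = ∑ j, ⟪e j, ξ⟫_ℂ • e j := by
  simp [projOn]

lemma projOn_basis [DecidableEq κ] (he : Orthonormal ℂ e) (k : κ) : projOn e (e k) = e k := by
  rw [projOn_apply, Finset.sum_eq_single k]
  · rw [inner_self_eq_norm_sq_to_K, he.1 k]; simp
  · intro j _ hj
    rw [he.2 hj, zero_smul]
  · intro h; exact absurd (Finset.mem_univ k) h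

lemma projOn_isStarProjection [DecidableEq κ] (he : Orthonormal ℂ e) :
    IsStarProjection (projOn e) := by
  rw [isStarProjection_iff]
  constructor
  · ext ξ
    simp only [mul_apply_eq_comp]
    conv_lhs => rw [projOn_apply e ξ, map_sum]
    simp only [map_smul, projOn_basis he]
    rw [projOn_apply]
  · rw [ContinuousLinearMap.isSelfAdjoint_iff']
    apply ContinuousLinearMap.ext
    intro u
    apply ext_inner_right ℂ
    intro v
    rw [ContinuousLinearMap.adjoint_inner_left, projOn_apply, projOn_apply, inner_sum, sum_inner]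
    refine Finset.sum_congr rfl (fun j _ => ?_)
    rw [inner_smul_right, inner_smul_left, inner_conj_symm, mul_comm]

lemma norm_comp_projOn_le (he : Orthonormal ℂ e) (T : H →L[ℂ] H) :
    ‖T * projOn e‖ ≤ Real.sqrt (∑ k, ‖T (e k)‖ ^ 2) := by
  apply ContinuousLinearMap.opNorm_le_bound _ (Real.sqrt_nonneg _)
  intro ξ
  simp only [mul_apply_eq_comp]
  rw [projOn_apply, map_sum]
  simp only [map_smul]
  calc ‖∑ k, ⟪e k, ξ⟫_ℂ • T (e k)‖ ≤ ∑ k, ‖⟪e k, ξ⟫_ℂ • T (e k)‖ := norm_sum_le _ _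
    _ = ∑ k, ‖T (e k)‖ * ‖⟪e k, ξ⟫_ℂ‖ := by
        refine Finset.sum_congr rfl (fun k _ => ?_)
        rw [norm_smul, mul_comm]
    _ ≤ Real.sqrt (∑ k, ‖T (e k)‖ ^ 2) * Real.sqrt (∑ k, ‖⟪e k, ξ⟫_ℂ‖ ^ 2) :=
        Real.sum_mul_le_sqrt_mul_sqrt _ _ _
    _ ≤ Real.sqrt (∑ k, ‖T (e k)‖ ^ 2) * ‖ξ‖ := by
        apply mul_le_mul_of_nonneg_left _ (Real.sqrt_nonneg _)
        rw [← Real.sqrt_sq (norm_nonneg ξ)]
        exact Real.sqrt_le_sqrt (he.sum_inner_products_le ξ)

end projOn

end Vale.Agent.Lib.P078
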