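import Vale.Agent.Lib.P078.Upper

namespace Vale.Agent.Lib.P078

open scoped InnerProductSpace

set_option linter.unusedSectionVars false

variable {H : Type*} [NormedAddCommGroup H] [InnerProductSpace ℂ H] [CompleteSpace H]

lemma IsPartition.toPOU {A : StarSubalgebra ℂ (H →L[ℂ] H)} {r : ℕ} {p : Fin r → H →L[ℂ] H}
    (hp : IsPartition A p) : POU p := ⟨hp.proj, hp.orth, hp.sum_eq⟩

/-- the reflection `2 |ζ⟩⟨ζ| - 1` -/
noncomputable def reflection (ζ : H) : H →L[ℂ] H :=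
  (2 : ℂ) • projOn (fun _ : Fin 1 => ζ) - 1

lemma orthonormal_single {ζ : H} (hζ : ‖ζ‖ = 1) : Orthonormal ℂ (fun _ : Fin 1 => ζ) := by
  refine ⟨fun _ => hζ, fun i j hij => ?_⟩
  exact absurd (Subsingleton.elim i j) hij

lemma reflection_apply (ζ w : H) : reflection ζ w = (2 * ⟪ζ, w⟫_ℂ) • ζ - w := by
  unfold reflection
  simp [projOn_apply, smul_smul]

lemma reflection_isSelfAdjoint {ζ : H} (hζ : ‖ζ‖ = 1) : IsSelfAdjoint (reflection ζ) := by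
  unfold reflection
  have h := (projOn_isStarProjection (orthonormal_single hζ)).isSelfAdjoint
  apply IsSelfAdjoint.sub _ (IsSelfAdjoint.one _)
  rw [IsSelfAdjoint, star_smul, h.star_eq]
  simp

lemma reflection_norm_le {ζ : H} (hζ : ‖ζ‖ = 1) : ‖reflection ζ‖ ≤ 1 := by
  have hsa := reflection_isSelfAdjoint hζ
  have hP := (projOn_isStarProjection (orthonormal_single hζ)).isIdempotentElem
  have hsq : reflection ζ * reflection ζ = 1 := by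
    unfold reflection
    set P := projOn (fun _ : Fin 1 => ζ)
    have hPP : P * P = P := hP
    simp only [mul_sub, sub_mul, mul_one, one_mul, smul_mul_assoc, mul_smul_comm, hPP]
    module
  have h1 : ‖reflection ζ‖ * ‖reflection ζ‖ = ‖(1 : H →L[ℂ] H)‖ := by
    rw [← CStarRing.norm_star_mul_self, hsa.star_eq, hsq]
  have h2 : ‖(1 : H →L[ℂ] H)‖ ≤ 1 := ContinuousLinearMap.norm_id_le
  nlinarith [norm_nonneg (reflection ζ)]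

lemma pinching_reflection_apply {r : ℕ} {p : Fin r → H →L[ℂ] H} (hp : POU p) (ζ w : H) :
    pinching p (reflection ζ) w = ∑ i, (2 * ⟪p i ζ, w⟫_ℂ) • p i ζ - w := by
  unfold pinching
  simp only [sum_apply, mul_apply_eq_comp, reflection_apply, map_sub, map_smul, hp.idem]
  rw [Finset.sum_sub_distrib, hp.sum_apply]
  congr 1
  refine Finset.sum_congr rfl (fun i _ => ?_)
  rw [hp.inner_left]

lemma re_inner_pinching_reflection {r : ℕ} {p : Fin r → H →L[ℂ] H} (hp : POU p) (ζ w : H) :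
    (⟪w, pinching p (reflection ζ) w⟫_ℂ).re = 2 * ∑ i, ‖⟪p i ζ, w⟫_ℂ‖ ^ 2 - ‖w‖ ^ 2 := by
  rw [pinching_reflection_apply hp, inner_sub_right, inner_sum, Complex.sub_re, Complex.re_sum,
    Finset.mul_sum]
  congr 1
  · refine Finset.sum_congr rfl (fun i _ => ?_)
    rw [inner_smul_right, ← inner_conj_symm w (p i ζ), mul_assoc, Complex.mul_conj,
      Complex.normSq_eq_norm_sq]
    simp [← Complex.ofReal_pow]
  · rw [inner_self_eq_norm_sq_to_K]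
    simp [← Complex.ofReal_pow]

/-- the quadratic form of `T` at a vector almost fixed by `q` is controlled by `‖q T q‖` -/
lemma abs_re_inner_le_of_compress {T q : H →L[ℂ] H} (hq : IsStarProjection q) {ε' δ : ℝ}
    (hT : ‖q * T * q‖ ≤ ε') {v : H} (hv : ‖(1 - q) v‖ < δ) :
    |(⟪v, T v⟫_ℂ).re| ≤ ε' * ‖v‖ ^ 2 + 2 * δ * ‖T‖ * ‖v‖ := by
  have hq1 : ‖q‖ ≤ 1 := IsStarProjection.norm_le _ hq
  have hqv : ‖q v‖ ≤ ‖v‖ := by
    calc ‖q v‖ ≤ ‖q‖ * ‖v‖ := q.le_opNorm v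
      _ ≤ 1 * ‖v‖ := mul_le_mul_of_nonneg_right hq1 (norm_nonneg _)
      _ = ‖v‖ := one_mul _
  have hd : ‖v - q v‖ < δ := by simpa using hv
  have e1 : ⟪v, T v⟫_ℂ = ⟪v, (q * T * q) v⟫_ℂ + ⟪v - q v, T v⟫_ℂ + ⟪q v, T (v - q v)⟫_ℂ := by
    have : ⟪v, (q * T * q) v⟫_ℂ = ⟪q v, T (q v)⟫_ℂ := by
      simp only [mul_apply_eq_comp]
      rw [← sa_inner hq.isSelfAdjoint]
    rw [this, inner_sub_left, map_sub, inner_sub_right]
    ring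
  rw [e1, Complex.add_re, Complex.add_re]
  have b1 : |(⟪v, (q * T * q) v⟫_ℂ).re| ≤ ε' * ‖v‖ ^ 2 := by
    calc |(⟪v, (q * T * q) v⟫_ℂ).re| ≤ ‖v‖ * ‖(q * T * q) v‖ := abs_re_inner_le _ _
      _ ≤ ‖v‖ * (ε' * ‖v‖) := by
          apply mul_le_mul_of_nonneg_left _ (norm_nonneg _)
          exact ((q * T * q).le_opNorm v).trans (mul_le_mul_of_nonneg_right hT (norm_nonneg _))
      _ = ε' * ‖v‖ ^ 2 := by ring
  have b2 : |(⟪v - q v, T v⟫_ℂ).re| ≤ δ * (‖T‖ * ‖v‖) := by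
    calc |(⟪v - q v, T v⟫_ℂ).re| ≤ ‖v - q v‖ * ‖T v‖ := abs_re_inner_le _ _
      _ ≤ δ * (‖T‖ * ‖v‖) := mul_le_mul hd.le (T.le_opNorm v) (norm_nonneg _)
          (le_trans (norm_nonneg _) hd.le)
  have b3 : |(⟪q v, T (v - q v)⟫_ℂ).re| ≤ ‖v‖ * (‖T‖ * δ) := by
    calc |(⟪q v, T (v - q v)⟫_ℂ).re| ≤ ‖q v‖ * ‖T (v - q v)‖ := abs_re_inner_le _ _
      _ ≤ ‖v‖ * (‖T‖ * δ) := by
          apply mul_le_mul hqv _ (norm_nonneg _) (norm_nonneg _)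
          exact (T.le_opNorm _).trans (mul_le_mul_of_nonneg_left hd.le (norm_nonneg _))
  calc |(⟪v, (q * T * q) v⟫_ℂ).re + (⟪v - q v, T v⟫_ℂ).re + (⟪q v, T (v - q v)⟫_ℂ).re|
      ≤ |(⟪v, (q * T * q) v⟫_ℂ).re| + |(⟪v - q v, T v⟫_ℂ).re| + |(⟪q v, T (v - q v)⟫_ℂ).re| :=
        abs_add_three _ _ _
    _ ≤ ε' * ‖v‖ ^ 2 + δ * (‖T‖ * ‖v‖) + ‖v‖ * (‖T‖ * δ) := add_le_add (add_le_add b1 b2) b3
    _ = ε' * ‖v‖ ^ 2 + 2 * δ * ‖T‖ * ‖v‖ := by ring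

lemma norm_pinching_le {r : ℕ} {p : Fin r → H →L[ℂ] H} (hp : POU p) (x : H →L[ℂ] H) :
    ‖pinching p x‖ ≤ r * ‖x‖ := by
  unfold pinching
  calc ‖∑ i, p i * x * p i‖ ≤ ∑ i, ‖p i * x * p i‖ := norm_sum_le _ _
    _ ≤ ∑ _i : Fin r, ‖x‖ := by
        refine Finset.sum_le_sum (fun i _ => ?_)
        have h1 : ‖p i‖ ≤ 1 := IsStarProjection.norm_le _ (hp.proj i)
        calc ‖p i * x * p i‖ ≤ ‖p i‖ * ‖x‖ * ‖p i‖ :=
              (norm_mul_le _ _).trans (mul_le_mul_of_nonneg_right (norm_mul_le _ _) (norm_nonneg _))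
          _ ≤ 1 * ‖x‖ * 1 := by
              apply mul_le_mul _ h1 (norm_nonneg _) (by positivity)
              exact mul_le_mul_of_nonneg_right h1 (norm_nonneg _)
          _ = ‖x‖ := by ring
    _ = r * ‖x‖ := by simp

/-- a finely dividing family cuts any unit vector into small pieces -/
lemma exists_small_pieces {S : Set (H →L[ℂ] H)} (hS : FinelyDivisible S) {ζ : H} (hζ : ‖ζ‖ = 1)
    {τ : ℝ} (hτ : 0 < τ) :
    ∃ (L : ℕ) (f : Fin L → H →L[ℂ] H), (∀ l, f l ∈ S) ∧ POU f ∧ ∀ l, ‖f l ζ‖ ≤ τ := by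
  obtain ⟨m, e, he, happ, hfine⟩ := hS {ζ} (τ / 2) (by positivity)
  obtain ⟨L, f, π, hD⟩ := hfine ((τ / 2) ^ 2) (by positivity)
  refine ⟨L, f, hD.mem, hD.pou, fun l => ?_⟩
  have h1 : ‖f l (projOn e ζ)‖ ≤ τ / 2 := by
    rw [hD.apply_projOn, norm_smul]
    have hb : ‖f l (e (π l))‖ ≤ τ / 2 :=
      (sq_le_sq₀ (norm_nonneg _) (by positivity)).mp (hD.small l)
    have hi : ‖⟪e (π l), ζ⟫_ℂ‖ ≤ 1 := by
      calc ‖⟪e (π l), ζ⟫_ℂ‖ ≤ ‖e (π l)‖ * ‖ζ‖ := norm_inner_le_norm _ _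
        _ = 1 := by rw [he.1, hζ, one_mul]
    calc ‖⟪e (π l), ζ⟫_ℂ‖ * ‖f l (e (π l))‖ ≤ 1 * (τ / 2) :=
          mul_le_mul hi hb (norm_nonneg _) zero_le_one
      _ = τ / 2 := one_mul _
  have h2 : ‖f l (ζ - projOn e ζ)‖ ≤ τ / 2 :=
    (hD.pou.norm_apply_le l _).trans (happ ζ (by simp)).le
  calc ‖f l ζ‖ = ‖f l (projOn e ζ) + f l (ζ - projOn e ζ)‖ := by
        rw [← map_add]; congr 2; abel
    _ ≤ τ / 2 + τ / 2 := (norm_add_le _ _).trans (add_le_add h1 h2)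
    _ = τ := by ring

theorem not_soPavable_reflection {S : Set (H →L[ℂ] H)} {A : StarSubalgebra ℂ (H →L[ℂ] H)}
    (hSA : S ⊆ A) (hAc : ∀ a ∈ A, ∀ b ∈ A, a * b = b * a) (hS : FinelyDivisible S)
    {ζ : H} (hζ : ‖ζ‖ = 1) {ε : ℝ} {r : ℕ} (hr1 : 1 ≤ r) (hε : 0 ≤ ε) (hr : r * ε < 1) :
    ¬ SoPavable (fullAlgebra H) A (reflection ζ) ε r := by
  classical
  intro hpav
  have hrpos : (0 : ℝ) < r := by exact_mod_cast hr1
  set θ : ℝ := 1 / r - ε with hθ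
  have hθpos : 0 < θ := by
    rw [hθ, sub_pos, lt_div_iff₀ hrpos]; linarith
  set τ : ℝ := min 1 (θ / 4) with hτ
  have hτpos : 0 < τ := lt_min one_pos (by positivity)
  have hτsq : τ ^ 2 ≤ θ / 4 := by
    have h1 : τ ≤ 1 := min_le_left _ _
    have h2 : τ ≤ θ / 4 := min_le_right _ _
    nlinarith
  obtain ⟨L, f, hfS, hf, hsmall⟩ := exists_small_pieces hS hζ hτpos
  set δ : ℝ := θ / (4 * ((r + 1) * (L + 1))) with hδ
  have hδpos : 0 < δ := by positivity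
  obtain ⟨p, a, q, hp, haA, hasa, hanorm, _, hq, hF, hnorm⟩ :=
    hpav (insert ζ (Finset.univ.image (fun l => f l ζ))) δ hδpos
  have hpP : POU p := hp.toPOU
  have hx1 : ‖reflection ζ‖ ≤ 1 := reflection_norm_le hζ
  set T : H →L[ℂ] H := pinching p (reflection ζ) - a with hT
  have hTn : ‖T‖ ≤ r + 1 := by
    calc ‖T‖ ≤ ‖pinching p (reflection ζ)‖ + ‖a‖ := norm_sub_le _ _
      _ ≤ r * ‖reflection ζ‖ + ‖reflection ζ‖ := add_le_add (norm_pinching_le hpP _) hanorm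
      _ ≤ r * 1 + 1 := add_le_add (mul_le_mul_of_nonneg_left hx1 hrpos.le) hx1
      _ = r + 1 := by ring
  have hcomp : ‖q * T * q‖ ≤ ε :=
    hnorm.trans (by nlinarith [norm_nonneg (reflection ζ)])
  have hQ : ∀ v : H, (⟪v, T v⟫_ℂ).re
      = 2 * ∑ i, ‖⟪p i ζ, v⟫_ℂ‖ ^ 2 - ‖v‖ ^ 2 - (⟪v, a v⟫_ℂ).re := by
    intro v
    rw [hT, ContinuousLinearMap.sub_apply, inner_sub_right, Complex.sub_re,
      re_inner_pinching_reflection hpP]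
  have hbound : ∀ v ∈ insert ζ (Finset.univ.image (fun l => f l ζ)), ‖v‖ ≤ 1 →
      |(⟪v, T v⟫_ℂ).re| ≤ ε * ‖v‖ ^ 2 + 2 * δ * (r + 1) := by
    intro v hv hv1
    have h := abs_re_inner_le_of_compress hq hcomp (hF v hv)
    have h2 : 2 * δ * ‖T‖ * ‖v‖ ≤ 2 * δ * (r + 1) * 1 := by
      apply mul_le_mul _ hv1 (norm_nonneg _) (by positivity)
      exact mul_le_mul_of_nonneg_left hTn (by positivity)
    linarith
  -- the vector ζ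
  have hζb := hbound ζ (by simp) hζ.le
  rw [hζ] at hζb
  -- the pieces
  have hpieces : ∀ l, |(⟪f l ζ, T (f l ζ)⟫_ℂ).re| ≤ ε * ‖f l ζ‖ ^ 2 + 2 * δ * (r + 1) := by
    intro l
    apply hbound
    · apply Finset.mem_insert_of_mem
      exact Finset.mem_image_of_mem _ (Finset.mem_univ l)
    · exact (hf.norm_apply_le l ζ).trans hζ.le
  have hsumn : ∑ l, ‖f l ζ‖ ^ 2 = 1 := by rw [hf.sum_norm_sq, hζ]; norm_num
  -- commutation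
  have hcomm_a : ∀ l, a (f l ζ) = f l (a ζ) := by
    intro l
    have := congrArg (fun R : H →L[ℂ] H => R ζ) (hAc a haA (f l) (hSA (hfS l)))
    simpa [mul_apply_eq_comp] using this
  have hcomm_p : ∀ i l, p i (f l ζ) = f l (p i ζ) := by
    intro i l
    have := congrArg (fun R : H →L[ℂ] H => R ζ) (hAc (p i) (hp.mem i) (f l) (hSA (hfS l)))
    simpa [mul_apply_eq_comp] using this
  have hsuma : ∑ l, (⟪f l ζ, a (f l ζ)⟫_ℂ).re = (⟪ζ, a ζ⟫_ℂ).re := by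
    have h1 : ∀ l, ⟪f l ζ, a (f l ζ)⟫_ℂ = ⟪f l ζ, a ζ⟫_ℂ := by
      intro l
      rw [hcomm_a, ← hf.inner_left, hf.idem]
    simp only [h1]
    rw [← Complex.re_sum, ← sum_inner, hf.sum_apply]
  -- small cross terms
  have hcross : ∀ l, ∑ i, ‖⟪p i ζ, f l ζ⟫_ℂ‖ ^ 2 ≤ τ ^ 2 * ‖f l ζ‖ ^ 2 := by
    intro l
    have h1 : ∀ i, ‖⟪p i ζ, f l ζ⟫_ℂ‖ ^ 2 ≤ ‖p i (f l ζ)‖ ^ 2 * ‖f l ζ‖ ^ 2 := by
      intro i
      have : ⟪p i ζ, f l ζ⟫_ℂ = ⟪p i (f l ζ), f l ζ⟫_ℂ := by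
        rw [hcomm_p, hf.inner_left, hf.idem]
      rw [this, ← mul_pow]
      exact pow_le_pow_left₀ (norm_nonneg _) (norm_inner_le_norm _ _) 2
    calc ∑ i, ‖⟪p i ζ, f l ζ⟫_ℂ‖ ^ 2 ≤ ∑ i, ‖p i (f l ζ)‖ ^ 2 * ‖f l ζ‖ ^ 2 :=
          Finset.sum_le_sum (fun i _ => h1 i)
      _ = ‖f l ζ‖ ^ 2 * ‖f l ζ‖ ^ 2 := by rw [← Finset.sum_mul, hpP.sum_norm_sq]
      _ ≤ τ ^ 2 * ‖f l ζ‖ ^ 2 := by
          apply mul_le_mul_of_nonneg_right _ (by positivity)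
          exact pow_le_pow_left₀ (norm_nonneg _) (hsmall l) 2
  have hcross_sum : ∑ l, ∑ i, ‖⟪p i ζ, f l ζ⟫_ℂ‖ ^ 2 ≤ τ ^ 2 := by
    calc ∑ l, ∑ i, ‖⟪p i ζ, f l ζ⟫_ℂ‖ ^ 2 ≤ ∑ l, τ ^ 2 * ‖f l ζ‖ ^ 2 :=
          Finset.sum_le_sum (fun l _ => hcross l)
      _ = τ ^ 2 := by rw [← Finset.mul_sum, hsumn, mul_one]
  -- the main term
  have hmain : 1 / (r : ℝ) ≤ ∑ i, ‖⟪p i ζ, ζ⟫_ℂ‖ ^ 2 := by
    have h1 : ∀ i, ‖⟪p i ζ, ζ⟫_ℂ‖ = ‖p i ζ‖ ^ 2 := by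
      intro i
      have : ⟪p i ζ, ζ⟫_ℂ = ⟪p i ζ, p i ζ⟫_ℂ := by
        conv_lhs => rw [← hpP.idem i ζ, hpP.inner_left]
      rw [this, inner_self_eq_norm_sq_to_K]
      simp
    simp only [h1]
    have h2 : ∑ i, ‖p i ζ‖ ^ 2 = 1 := by rw [hpP.sum_norm_sq, hζ]; norm_num
    have h3 := sq_sum_le_card_mul_sum_sq (s := (Finset.univ : Finset (Fin r)))
      (f := fun i => ‖p i ζ‖ ^ 2)
    rw [h2] at h3
    simp only [Finset.card_univ, Fintype.card_fin] at h3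
    rw [div_le_iff₀ hrpos]
    linarith
  -- combine
  have hid : 2 * ∑ i, ‖⟪p i ζ, ζ⟫_ℂ‖ ^ 2
      = (⟪ζ, T ζ⟫_ℂ).re - ∑ l, (⟪f l ζ, T (f l ζ)⟫_ℂ).re
        + 2 * ∑ l, ∑ i, ‖⟪p i ζ, f l ζ⟫_ℂ‖ ^ 2 := by
    simp only [hQ]
    rw [Finset.sum_sub_distrib, Finset.sum_sub_distrib, hsuma, hsumn, hζ, ← Finset.mul_sum]
    ring
  have hsumpieces : ∑ l, |(⟪f l ζ, T (f l ζ)⟫_ℂ).re| ≤ ε + 2 * δ * (r + 1) * L := by
    calc ∑ l, |(⟪f l ζ, T (f l ζ)⟫_ℂ).re| ≤ ∑ l, (ε * ‖f l ζ‖ ^ 2 + 2 * δ * (r + 1)) :=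
          Finset.sum_le_sum (fun l _ => hpieces l)
      _ = ε + 2 * δ * (r + 1) * L := by
          rw [Finset.sum_add_distrib, ← Finset.mul_sum, hsumn]
          simp
          ring
  have hneg : -∑ l, (⟪f l ζ, T (f l ζ)⟫_ℂ).re ≤ ∑ l, |(⟪f l ζ, T (f l ζ)⟫_ℂ).re| := by
    rw [← Finset.sum_neg_distrib]
    exact Finset.sum_le_sum (fun l _ => neg_le_abs _)
  have hδeq : 2 * δ * (r + 1) * (L + 1) = θ / 2 := by
    rw [hδ]; field_simp; ring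
  have h1 := le_abs_self (⟪ζ, T ζ⟫_ℂ).re
  have hfinal : 2 * (1 / (r : ℝ)) ≤ 2 * ε + θ := by
    nlinarith
  have : 1 / (r : ℝ) = θ + ε := by rw [hθ]; ring
  linarith

end Vale.Agent.Lib.P078
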