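import Vale.Agent.Lib.P078.Upper

namespace Vale.Agent.Lib.P078

open scoped InnerProductSpace

set_option linter.unusedSectionVars false

variable {H : Type*} [NormedAddCommGroup H] [InnerProductSpace ℂ H] [CompleteSpace H]

namespace FineData

variable {S : Set (H →L[ℂ] H)} {m : ℕ} {e : Fin m → H} {η : ℝ} {L : ℕ}
  {f : Fin L → H →L[ℂ] H} {π : Fin L → Fin m}

/-- an operator commuting with the fine partition is diagonal in the coarse system -/
lemma inner_offdiag (hD : FineData S e η f π) {T : H →L[ℂ] H}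
    (hT : ∀ l, f l * T = T * f l) {j k : Fin m} (hjk : j ≠ k) : ⟪e j, T (e k)⟫_ℂ = 0 := by
  have h1 : T (e k) = ∑ l, f l (T (f l (e k))) := by
    conv_lhs => rw [← hD.pou.sum_apply (e k), map_sum]
    refine Finset.sum_congr rfl (fun l _ => ?_)
    have := congrArg (fun R : H →L[ℂ] H => R (f l (e k))) (hT l)
    simp only [mul_apply_eq_comp] at this
    rw [this, hD.pou.idem]
  rw [h1, inner_sum]
  refine Finset.sum_eq_zero (fun l _ => ?_)
  rw [← hD.pou.inner_left]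
  by_cases h : π l = j
  · have hk : π l ≠ k := fun h2 => hjk (h ▸ h2)
    rw [hD.off l k hk]; simp
  · rw [hD.off l j h]; simp

lemma projOn_T_basis (hD : FineData S e η f π) {T : H →L[ℂ] H}
    (hT : ∀ l, f l * T = T * f l) (k : Fin m) :
    projOn e (T (e k)) = ⟪e k, T (e k)⟫_ℂ • e k := by
  rw [projOn_apply, Finset.sum_eq_single k]
  · intro j _ hj
    rw [hD.inner_offdiag hT hj, zero_smul]
  · intro h; exact absurd (Finset.mem_univ _) h

lemma compress_apply (hD : FineData S e η f π) {T : H →L[ℂ] H}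
    (hT : ∀ l, f l * T = T * f l) (ξ : H) :
    projOn e (T (projOn e ξ)) = ∑ k, (⟪e k, ξ⟫_ℂ * ⟪e k, T (e k)⟫_ℂ) • e k := by
  conv_lhs => rw [projOn_apply e ξ, map_sum, map_sum]
  refine Finset.sum_congr rfl (fun k _ => ?_)
  rw [map_smul, map_smul, hD.projOn_T_basis hT, smul_smul]

lemma compress_comm (hD : FineData S e η f π) (he : Orthonormal ℂ e) {T T' : H →L[ℂ] H}
    (hT : ∀ l, f l * T = T * f l) (hT' : ∀ l, f l * T' = T' * f l) (ξ : H) :
    projOn e (T (projOn e (T' (projOn e ξ)))) = projOn e (T' (projOn e (T (projOn e ξ)))) := by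
  have h : ∀ (R R' : H →L[ℂ] H), (∀ l, f l * R = R * f l) → (∀ l, f l * R' = R' * f l) →
      projOn e (R (projOn e (R' (projOn e ξ))))
        = ∑ k, (⟪e k, ξ⟫_ℂ * ⟪e k, R' (e k)⟫_ℂ * ⟪e k, R (e k)⟫_ℂ) • e k := by
    intro R R' hR hR'
    rw [hD.compress_apply hR', map_sum, map_sum]
    refine Finset.sum_congr rfl (fun k _ => ?_)
    rw [map_smul, map_smul, hD.projOn_T_basis hR, smul_smul]
  rw [h T T' hT hT', h T' T hT' hT]
  refine Finset.sum_congr rfl (fun k _ => ?_)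
  congr 1
  ring

end FineData

lemma norm_projOn_apply_le {m : ℕ} {e : Fin m → H} (he : Orthonormal ℂ e) (v : H) :
    ‖projOn e v‖ ≤ ‖v‖ := by
  have h1 : ‖projOn e‖ ≤ 1 := IsStarProjection.norm_le _ (projOn_isStarProjection he)
  calc ‖projOn e v‖ ≤ ‖projOn e‖ * ‖v‖ := (projOn e).le_opNorm v
    _ ≤ 1 * ‖v‖ := mul_le_mul_of_nonneg_right h1 (norm_nonneg _)
    _ = ‖v‖ := one_mul _

/-- approximation of `T T' ξ` by the compressed product -/
lemma approx_prod {m : ℕ} {e : Fin m → H} (he : Orthonormal ℂ e) (T T' : H →L[ℂ] H) (ξ : H)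
    {δ : ℝ} (h1 : ‖ξ - projOn e ξ‖ < δ) (h2 : ‖T' ξ - projOn e (T' ξ)‖ < δ)
    (h3 : ‖T (T' ξ) - projOn e (T (T' ξ))‖ < δ) :
    ‖T (T' ξ) - projOn e (T (projOn e (T' (projOn e ξ))))‖ ≤ δ * (1 + ‖T‖ + ‖T‖ * ‖T'‖) := by
  have e1 : T (T' ξ) - projOn e (T (projOn e (T' (projOn e ξ))))
      = (T (T' ξ) - projOn e (T (T' ξ))) + projOn e (T (T' ξ - projOn e (T' ξ)))
        + projOn e (T (projOn e (T' (ξ - projOn e ξ)))) := by
    simp only [map_sub]
    abel
  rw [e1]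
  have b2 : ‖projOn e (T (T' ξ - projOn e (T' ξ)))‖ ≤ ‖T‖ * δ :=
    (norm_projOn_apply_le he _).trans ((T.le_opNorm _).trans
      (mul_le_mul_of_nonneg_left h2.le (norm_nonneg _)))
  have b3 : ‖projOn e (T (projOn e (T' (ξ - projOn e ξ))))‖ ≤ ‖T‖ * (‖T'‖ * δ) :=
    (norm_projOn_apply_le he _).trans ((T.le_opNorm _).trans
      (mul_le_mul_of_nonneg_left ((norm_projOn_apply_le he _).trans ((T'.le_opNorm _).trans
        (mul_le_mul_of_nonneg_left h1.le (norm_nonneg _)))) (norm_nonneg _)))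
  calc _ ≤ ‖T (T' ξ) - projOn e (T (T' ξ))‖ + ‖projOn e (T (T' ξ - projOn e (T' ξ)))‖
        + ‖projOn e (T (projOn e (T' (ξ - projOn e ξ))))‖ := norm_add₃_le
    _ ≤ δ + ‖T‖ * δ + ‖T‖ * (‖T'‖ * δ) := add_le_add (add_le_add h3.le b2) b3
    _ = δ * (1 + ‖T‖ + ‖T‖ * ‖T'‖) := by ring

/-- the commutant of a finely dividing family is abelian -/
theorem commute_of_finelyDivisible {S : Set (H →L[ℂ] H)} (hS : FinelyDivisible S)
    {T T' : H →L[ℂ] H} (hT : ∀ g ∈ S, g * T = T * g) (hT' : ∀ g ∈ S, g * T' = T' * g) :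
    T * T' = T' * T := by
  classical
  ext ξ
  simp only [mul_apply_eq_comp]
  set C : ℝ := (1 + ‖T‖ + ‖T‖ * ‖T'‖) + (1 + ‖T'‖ + ‖T'‖ * ‖T‖) with hC
  have hCpos : 0 < C := by positivity
  have key : ∀ δ : ℝ, 0 < δ → ‖T (T' ξ) - T' (T ξ)‖ ≤ δ * C := by
    intro δ hδ
    obtain ⟨m, e, he, happ, hfine⟩ :=
      hS {ξ, T' ξ, T ξ, T (T' ξ), T' (T ξ)} δ hδ
    obtain ⟨L, f, π, hD⟩ := hfine 1 one_pos
    have a1 := approx_prod he T T' ξ (happ ξ (by simp)) (happ (T' ξ) (by simp))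
      (happ (T (T' ξ)) (by simp))
    have a2 := approx_prod he T' T ξ (happ ξ (by simp)) (happ (T ξ) (by simp))
      (happ (T' (T ξ)) (by simp))
    have hc := hD.compress_comm he (fun l => hT _ (hD.mem l)) (fun l => hT' _ (hD.mem l)) ξ
    calc ‖T (T' ξ) - T' (T ξ)‖
        = ‖(T (T' ξ) - projOn e (T (projOn e (T' (projOn e ξ)))))
            - (T' (T ξ) - projOn e (T' (projOn e (T (projOn e ξ)))))‖ := by
          rw [hc]; congr 1; abel
      _ ≤ δ * (1 + ‖T‖ + ‖T‖ * ‖T'‖) + δ * (1 + ‖T'‖ + ‖T'‖ * ‖T‖) :=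
          (norm_sub_le _ _).trans (add_le_add a1 a2)
      _ = δ * C := by rw [hC]; ring
  by_contra hne
  have hpos : 0 < ‖T (T' ξ) - T' (T ξ)‖ := norm_pos_iff.mpr (sub_ne_zero.mpr hne)
  have := key (‖T (T' ξ) - T' (T ξ)‖ / (2 * C)) (by positivity)
  have h2 : ‖T (T' ξ) - T' (T ξ)‖ / (2 * C) * C = ‖T (T' ξ) - T' (T ξ)‖ / 2 := by
    field_simp
  rw [h2] at this
  linarith

/-- the commutant of a commuting, finely dividing family of self-adjoint operators is a MASA -/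
theorem isMASA_centralizer {S : Set (H →L[ℂ] H)} (hS : FinelyDivisible S)
    (hsa : ∀ g ∈ S, IsSelfAdjoint g) (hcomm : ∀ g ∈ S, ∀ g' ∈ S, g * g' = g' * g) :
    IsMASA (fullAlgebra H) (StarSubalgebra.centralizer ℂ S) := by
  refine ⟨fun a _ => mem_fullAlgebra a, ?_, ?_⟩
  · intro a ha b hb
    rw [StarSubalgebra.mem_centralizer_iff] at ha hb
    exact commute_of_finelyDivisible hS (fun g hg => (ha g hg).1) (fun g hg => (hb g hg).1)
  · intro m _ hm
    rw [StarSubalgebra.mem_centralizer_iff]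
    intro g hg
    have hgA : g ∈ StarSubalgebra.centralizer ℂ S := by
      rw [StarSubalgebra.mem_centralizer_iff]
      intro g' hg'
      rw [(hsa g' hg').star_eq]
      exact ⟨hcomm g' hg' g hg, hcomm g' hg' g hg⟩
    rw [(hsa g hg).star_eq]
    exact ⟨(hm g hgA).symm, (hm g hgA).symm⟩

lemma subset_centralizer {S : Set (H →L[ℂ] H)}
    (hsa : ∀ g ∈ S, IsSelfAdjoint g) (hcomm : ∀ g ∈ S, ∀ g' ∈ S, g * g' = g' * g) :
    S ⊆ (StarSubalgebra.centralizer ℂ S : StarSubalgebra ℂ (H →L[ℂ] H)) := by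
  intro g hg
  show g ∈ StarSubalgebra.centralizer ℂ S
  rw [StarSubalgebra.mem_centralizer_iff]
  intro g' hg'
  rw [(hsa g' hg').star_eq]
  exact ⟨hcomm g' hg' g hg, hcomm g' hg' g hg⟩

end Vale.Agent.Lib.P078
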