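import Mathlib

namespace Vale.Agent.Lib.P078

open MeasureTheory

/-- Lebesgue measure on the interval `[0,1)`. -/
noncomputable def mu01 : Measure ℝ := volume.restrict (Set.Ico 0 1)

instance : IsFiniteMeasure mu01 := by
  unfold mu01
  exact ⟨by simp⟩

/-- The Hilbert space `L²[0,1)` of complex square-integrable functions. -/
abbrev L2I : Type := Lp ℂ 2 mu01

open Classical in
/-- Multiplication by the indicator function of a Borel set `s`, as a bounded operator on
`L²[0,1)` (and `0` if `s` is not measurable). -/
noncomputable def indMul (s : Set ℝ) : L2I →L[ℂ] L2I :=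
  if hs : MeasurableSet s then
    (ContinuousLinearMap.mul ℂ ℂ).holderL mu01 ⊤ 2 2
      (indicatorConstLp ⊤ hs (measure_ne_top mu01 s) (1 : ℂ))
  else 0

/-- The set of all multiplication operators by indicator functions of Borel sets. -/
def indSet : Set (L2I →L[ℂ] L2I) := {T | ∃ s : Set ℝ, MeasurableSet s ∧ T = indMul s}

/-- The commutant of the indicator multiplication operators: the multiplication algebra
`L^∞[0,1)` acting on `L²[0,1)`. -/
noncomputable def multAlgebra : StarSubalgebra ℂ (L2I →L[ℂ] L2I) :=
  StarSubalgebra.centralizer ℂ indSet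

end Vale.Agent.Lib.P078
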