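import Vale.Agent.Lib.P078.ModelLemmas

namespace Vale.Agent.Lib.P078

open MeasureTheory
open scoped InnerProductSpace

set_option linter.unusedSectionVars false

lemma best_approx {H : Type*} [NormedAddCommGroup H] [InnerProductSpace ℂ H] [CompleteSpace H]
    {m : ℕ} {e : Fin m → H} (he : Orthonormal ℂ e) (ξ : H) (c : Fin m → ℂ) :
    ‖ξ - projOn e ξ‖ ≤ ‖ξ - ∑ j, c j • e j‖ := by
  have hq := projOn_isStarProjection he
  have h1 : ‖(1 : H →L[ℂ] H) - projOn e‖ ≤ 1 := IsStarProjection.norm_le _ hq.one_sub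
  have hv : projOn e (∑ j, c j • e j) = ∑ j, c j • e j := by
    rw [map_sum]
    refine Finset.sum_congr rfl (fun j _ => ?_)
    rw [map_smul, projOn_basis he]
  have h2 : ξ - projOn e ξ = ((1 : H →L[ℂ] H) - projOn e) (ξ - ∑ j, c j • e j) := by
    simp only [sub_apply, map_sub, hv, ContinuousLinearMap.one_apply]
    abel
  rw [h2]
  calc ‖((1 : H →L[ℂ] H) - projOn e) (ξ - ∑ j, c j • e j)‖
      ≤ ‖(1 : H →L[ℂ] H) - projOn e‖ * ‖ξ - ∑ j, c j • e j‖ := ContinuousLinearMap.le_opNorm _ _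
    _ ≤ 1 * ‖ξ - ∑ j, c j • e j‖ := mul_le_mul_of_nonneg_right h1 (norm_nonneg _)
    _ = ‖ξ - ∑ j, c j • e j‖ := one_mul _

lemma measureUnivNNReal_mu01 : measureUnivNNReal mu01 = 1 := by
  unfold measureUnivNNReal mu01
  simp

/-- the step function with values `g (j/m)` on the cells of the grid -/
noncomputable def stepFn (g : ℝ → ℂ) (m : ℕ) : L2I :=
  ∑ j : Fin m, g ((j : ℕ) / (m : ℝ)) • ind (cell m j)

lemma stepFn_eq (g : ℝ → ℂ) {m : ℕ} (hm : 0 < m) :
    stepFn g m = ∑ j : Fin m, (g ((j : ℕ) / (m : ℝ)) / ((Real.sqrt m : ℝ) : ℂ)) • coarse m j := by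
  have hm' : (0 : ℝ) < m := by exact_mod_cast hm
  have hs : ((Real.sqrt m : ℝ) : ℂ) ≠ 0 := by
    exact_mod_cast (Real.sqrt_pos.mpr hm').ne'
  unfold stepFn coarse
  refine Finset.sum_congr rfl (fun j _ => ?_)
  rw [smul_smul, div_mul_cancel₀ _ hs]

lemma stepFn_coeFn (g : ℝ → ℂ) {m : ℕ} (hm : 0 < m) :
    ∀ᵐ x ∂mu01, ∀ l : Fin m, x ∈ cell m l → (stepFn g m) x = g ((l : ℕ) / (m : ℝ)) := by
  have h1 : ∀ᵐ x ∂mu01, ∀ j : Fin m,
      (g ((j : ℕ) / (m : ℝ)) • ind (cell m j)) x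
        = g ((j : ℕ) / (m : ℝ)) * (cell m j).indicator (fun _ => (1 : ℂ)) x := by
    rw [ae_all_iff]
    intro j
    filter_upwards [Lp.coeFn_smul (g ((j : ℕ) / (m : ℝ))) (ind (cell m j)),
      ind_coeFn (measurableSet_cell m j)] with x h1 h2
    rw [h1, Pi.smul_apply, h2, smul_eq_mul]
  filter_upwards [Lp.coeFn_fun_finsetSum Finset.univ
    (fun j : Fin m => g ((j : ℕ) / (m : ℝ)) • ind (cell m j)), h1] with x h2 h3 l hl
  unfold stepFn
  rw [h2]
  simp only [h3]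
  rw [Finset.sum_eq_single l]
  · simp [hl]
  · intro l' _ hl'
    have hne : (l' : ℕ) ≠ (l : ℕ) := fun h => hl' (Fin.ext h)
    have : x ∉ cell m l' := by
      intro hx'
      have : x ∈ cell m l' ∩ cell m l := ⟨hx', hl⟩
      rw [cell_disjoint hm hne] at this
      exact this
    simp [this]
  · intro h; exact absurd (Finset.mem_univ _) h

lemma approx_coarse (ξ : L2I) {δ : ℝ} (hδ : 0 < δ) :
    ∃ N : ℕ, ∀ m : ℕ, N ≤ m → 0 < m → ‖ξ - projOn (coarse m) ξ‖ < δ := by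
  have hξ : MemLp ξ 2 mu01 := Lp.memLp ξ
  obtain ⟨g, hg1, hg2⟩ := hξ.exists_boundedContinuous_eLpNorm_sub_le (by norm_num)
    (ε := ENNReal.ofReal (δ / 2)) (by simp [hδ])
  set G : L2I := hg2.toLp g with hG
  have hξG : ‖ξ - G‖ ≤ δ / 2 := by
    rw [Lp.norm_def]
    apply ENNReal.toReal_le_of_le_ofReal (by positivity)
    refine le_trans (le_of_eq ?_) hg1
    apply eLpNorm_congr_ae
    filter_upwards [Lp.coeFn_sub ξ G, hg2.coeFn_toLp] with x h1 h2
    rw [h1, Pi.sub_apply, Pi.sub_apply, h2]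
  have huc : UniformContinuousOn g (Set.Icc (0 : ℝ) 1) :=
    isCompact_Icc.uniformContinuousOn_of_continuous g.continuous.continuousOn
  rw [Metric.uniformContinuousOn_iff] at huc
  obtain ⟨ρ, hρ, hρ2⟩ := huc (δ / 4) (by positivity)
  refine ⟨⌈1 / ρ⌉₊ + 1, fun m hmN hm => ?_⟩
  have hm' : (0 : ℝ) < m := by exact_mod_cast hm
  have hmρ : 1 / (m : ℝ) < ρ := by
    have h1 : 1 / ρ < m := by
      calc 1 / ρ ≤ ⌈1 / ρ⌉₊ := Nat.le_ceil _
        _ < (⌈1 / ρ⌉₊ : ℝ) + 1 := by linarith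
        _ ≤ m := by exact_mod_cast hmN
    rw [div_lt_iff₀ hm']
    rw [div_lt_iff₀ hρ] at h1
    linarith
  have hGs : ‖G - stepFn g m‖ ≤ δ / 4 := by
    have hb : ∀ᵐ x ∂mu01, ‖(G - stepFn g m) x‖ ≤ δ / 4 := by
      filter_upwards [Lp.coeFn_sub G (stepFn g m), hg2.coeFn_toLp, stepFn_coeFn g hm, ae_mem_Ico]
        with x h1 h2 h3 h4
      obtain ⟨l, hl⟩ := exists_cell hm h4
      rw [h1, Pi.sub_apply, h2, h3 l hl, ← dist_eq_norm]
      apply le_of_lt
      have hl2 := (mem_cell_iff hm l x).mp hl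
      have hlm : ((l : ℕ) : ℝ) / m ∈ Set.Icc (0 : ℝ) 1 := by
        constructor
        · positivity
        · rw [div_le_one hm']
          exact_mod_cast l.2.le
      apply hρ2 x ⟨h4.1, h4.2.le⟩ _ hlm
      rw [Real.dist_eq, abs_lt]
      have e1 : x - ((l : ℕ) : ℝ) / m = (m * x - (l : ℕ)) / m := by field_simp
      rw [e1]
      constructor
      · have : 0 ≤ (m * x - ((l : ℕ) : ℝ)) / m := div_nonneg (by linarith [hl2.1]) hm'.le
        linarith
      · calc (m * x - ((l : ℕ) : ℝ)) / m < 1 / m := by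
              apply div_lt_div_of_pos_right _ hm'
              linarith [hl2.2]
          _ < ρ := hmρ
    have := Lp.norm_le_of_ae_bound (by positivity) hb
    rw [measureUnivNNReal_mu01] at this
    simpa using this
  calc ‖ξ - projOn (coarse m) ξ‖
      ≤ ‖ξ - ∑ j : Fin m, (g ((j : ℕ) / (m : ℝ)) / ((Real.sqrt m : ℝ) : ℂ)) • coarse m j‖ :=
        best_approx (orthonormal_coarse hm) ξ _
    _ = ‖ξ - stepFn g m‖ := by rw [stepFn_eq g hm]
    _ = ‖(ξ - G) + (G - stepFn g m)‖ := by congr 1; abel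
    _ ≤ δ / 2 + δ / 4 := (norm_add_le _ _).trans (add_le_add hξG hGs)
    _ < δ := by linarith

theorem finelyDivisible_indSet : FinelyDivisible indSet := by
  classical
  intro F δ hδ
  choose N hN using fun ξ : L2I => approx_coarse ξ hδ
  set m : ℕ := F.sup N + 1 with hm
  have hmpos : 0 < m := Nat.succ_pos _
  refine ⟨m, coarse m, orthonormal_coarse hmpos, fun ξ hξ => ?_, fun η hη => ?_⟩
  · apply hN ξ m _ hmpos
    exact (Finset.le_sup (f := N) hξ).trans (Nat.le_succ _)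
  · set n : ℕ := ⌈(m : ℝ) / η⌉₊ + 1 with hn
    have hnpos : 0 < n := Nat.succ_pos _
    have hn' : (0 : ℝ) < n := by exact_mod_cast hnpos
    refine ⟨m * n, _, _, fineData_grid hmpos hnpos ?_⟩
    have h1 : (m : ℝ) / η ≤ n := by
      calc (m : ℝ) / η ≤ ⌈(m : ℝ) / η⌉₊ := Nat.le_ceil _
        _ ≤ n := by rw [hn]; push_cast; linarith
    rw [div_le_iff₀ hn']
    rw [div_le_iff₀ hη] at h1
    linarith

lemma exists_unit_vector : ∃ ζ : L2I, ‖ζ‖ = 1 :=
  ⟨coarse 1 0, (orthonormal_coarse one_pos).1 0⟩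

end Vale.Agent.Lib.P078
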