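import Vale.Agent.Lib.P078.Defs
import Vale.Agent.Lib.P078.Model
import Vale.Agent.Lib.P078.Masa
import Vale.Agent.Lib.P078.Lower
import Vale.Agent.Lib.P078.Diffuse
import Vale.Agent.Lib.P078.ModelApprox

namespace Vale.Agent.Lib.P078

open MeasureTheory

variable {H : Type*} [NormedAddCommGroup H] [InnerProductSpace ℂ H] [CompleteSpace H]

/-- the sharp bounds, from fine divisibility -/
theorem sharp_bounds {S : Set (H →L[ℂ] H)} {A : StarSubalgebra ℂ (H →L[ℂ] H)}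
    (hSA : S ⊆ A) (hAc : ∀ a ∈ A, ∀ b ∈ A, a * b = b * a) (hS : FinelyDivisible S)
    {ζ : H} (hζ : ‖ζ‖ = 1) (ε : ℝ) (hε0 : 0 < ε) :
    (∀ r : ℕ, 1 < r * ε → AllSoPavable (fullAlgebra H) A ε r) ∧
    (∀ r : ℕ, 1 ≤ r → r * ε < 1 → ¬ AllSoPavable (fullAlgebra H) A ε r) ∧
    ((⌈1 / ε⌉₊ : ℕ) : ℕ∞) ≤ pavingNumber (fullAlgebra H) A ε ∧
    pavingNumber (fullAlgebra H) A ε ≤ ((⌊1 / ε⌋₊ + 1 : ℕ) : ℕ∞) := by
  have hup : ∀ r : ℕ, 1 < r * ε → AllSoPavable (fullAlgebra H) A ε r :=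
    fun r hr x _ hx => soPavable_of_finelyDivisible hSA hS hx hr
  have hlow : ∀ r : ℕ, 1 ≤ r → r * ε < 1 → ¬ AllSoPavable (fullAlgebra H) A ε r := by
    intro r hr1 hr hall
    exact not_soPavable_reflection hSA hAc hS hζ hr1 hε0.le hr
      (hall _ (mem_fullAlgebra _) (reflection_isSelfAdjoint hζ))
  refine ⟨hup, hlow, ?_, ?_⟩
  · unfold pavingNumber
    apply le_sInf
    rintro n ⟨r, hr1, rfl, hall⟩
    rw [Nat.cast_le]
    by_contra hlt
    push Not at hlt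
    have h1 : (r : ℝ) < 1 / ε := Nat.lt_ceil.mp hlt
    rw [lt_div_iff₀ hε0] at h1
    exact hlow r hr1 h1 hall
  · unfold pavingNumber
    apply sInf_le
    refine ⟨⌊1 / ε⌋₊ + 1, Nat.succ_le_succ (Nat.zero_le _), rfl, hup _ ?_⟩
    have h1 : 1 / ε < ((⌊1 / ε⌋₊ + 1 : ℕ) : ℝ) := by
      push_cast
      exact Nat.lt_floor_add_one _
    rw [div_lt_iff₀ hε0] at h1
    exact h1

lemma separable_L2I : TopologicalSpace.SeparableSpace L2I := by
  haveI : Fact ((2 : ENNReal) ≠ ⊤) := ⟨by norm_num⟩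
  infer_instance

lemma isMASA_multAlgebra : IsMASA (fullAlgebra L2I) multAlgebra :=
  isMASA_centralizer finelyDivisible_indSet indSet_sa indSet_comm

lemma indSet_subset_multAlgebra : indSet ⊆ (multAlgebra : StarSubalgebra ℂ (L2I →L[ℂ] L2I)) :=
  subset_centralizer indSet_sa indSet_comm

lemma isDiffuse_multAlgebra : IsDiffuse multAlgebra :=
  isDiffuse_of_finelyDivisible indSet_subset_multAlgebra isMASA_multAlgebra.2.1
    finelyDivisible_indSet

end Vale.Agent.Lib.P078
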