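import Mathlib

namespace Vale.Agent.Lib.P078

open Finset

set_option linter.unusedSectionVars false

variable {ι : Type*} [Fintype ι] [DecidableEq ι] {r : ℕ} [NeZero r]

/-- centred indicator of the event that a colouring gives the two points of `d` the same colour -/
noncomputable def chi (c : ι → Fin r) (d : ι × ι) : ℝ :=
  (if c d.1 = c d.2 then 1 else 0) - 1 / (r : ℝ)

lemma abs_chi_le (c : ι → Fin r) (d : ι × ι) : |chi c d| ≤ 1 := by
  have hr : (1 : ℝ) ≤ r := by exact_mod_cast NeZero.one_le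
  have h1 : (0 : ℝ) < 1 / (r : ℝ) := by positivity
  have h2 : 1 / (r : ℝ) ≤ 1 := by
    rw [div_le_one (by linarith)]; exact hr
  unfold chi
  split_ifs <;> rw [abs_le] <;> constructor <;> linarith

lemma chi_swap (c : ι → Fin r) (d : ι × ι) : chi c d.swap = chi c d := by
  unfold chi
  simp only [Prod.fst_swap, Prod.snd_swap, eq_comm]

/-- shift the colour at the point `k'` by `v` -/
def shiftAt (k' : ι) (v : Fin r) : (ι → Fin r) ≃ (ι → Fin r) :=
  Equiv.piCongrRight (fun i => if i = k' then Equiv.addRight v else Equiv.refl _)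

lemma shiftAt_apply_self (k' : ι) (v : Fin r) (c : ι → Fin r) :
    shiftAt k' v c k' = c k' + v := by
  simp [shiftAt]

lemma shiftAt_apply_ne (k' : ι) (v : Fin r) (c : ι → Fin r) {i : ι} (hi : i ≠ k') :
    shiftAt k' v c i = c i := by
  simp [shiftAt, hi]

lemma sum_chi_shift (k k' : ι) (hk : k ≠ k') (c : ι → Fin r) :
    ∑ v : Fin r, chi (shiftAt k' v c) (k, k') = 0 := by
  have hr : (r : ℝ) ≠ 0 := by exact_mod_cast NeZero.ne r
  unfold chi
  simp only [shiftAt_apply_self, shiftAt_apply_ne k' _ c hk]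
  rw [Finset.sum_sub_distrib]
  have h1 : ∑ v : Fin r, (if c k = c k' + v then (1 : ℝ) else 0) = 1 := by
    have : ∀ v : Fin r, (c k = c k' + v) ↔ (c k - c k' = v) := by
      intro v
      constructor
      · intro h; rw [h]; abel
      · intro h; rw [← h]; abel
    simp only [this]
    simp
  rw [h1]
  simp [hr]

lemma sum_chi_mul_eq_zero (k k' : ι) (hk : k ≠ k') (G : (ι → Fin r) → ℝ)
    (hG : ∀ c c' : ι → Fin r, (∀ i, i ≠ k' → c i = c' i) → G c = G c') :
    ∑ c : ι → Fin r, chi c (k, k') * G c = 0 := by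
  have hr : (r : ℝ) ≠ 0 := by exact_mod_cast NeZero.ne r
  set S := ∑ c : ι → Fin r, chi c (k, k') * G c with hS
  have key : ∀ v : Fin r, S = ∑ c : ι → Fin r, chi (shiftAt k' v c) (k, k') * G c := by
    intro v
    rw [hS, ← Equiv.sum_comp (shiftAt k' v)]
    refine Finset.sum_congr rfl (fun c _ => ?_)
    congr 1
    exact hG _ _ (fun i hi => shiftAt_apply_ne k' v c hi)
  have h2 : (r : ℝ) * S = 0 := by
    have : (r : ℝ) * S = ∑ _v : Fin r, S := by simp
    rw [this]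
    calc ∑ _v : Fin r, S = ∑ v : Fin r, ∑ c : ι → Fin r, chi (shiftAt k' v c) (k, k') * G c :=
          Finset.sum_congr rfl (fun v _ => key v)
      _ = ∑ c : ι → Fin r, ∑ v : Fin r, chi (shiftAt k' v c) (k, k') * G c := Finset.sum_comm
      _ = ∑ c : ι → Fin r, (∑ v : Fin r, chi (shiftAt k' v c) (k, k')) * G c := by
          refine Finset.sum_congr rfl (fun c _ => ?_)
          rw [Finset.sum_mul]
      _ = 0 := by simp [sum_chi_shift k k' hk]
  exact (mul_eq_zero.mp h2).resolve_left hr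

/-- covariance sum of two centred indicators -/
noncomputable def cov (r : ℕ) [NeZero r] (d d' : ι × ι) : ℝ :=
  ∑ c : ι → Fin r, chi c d * chi c d'

lemma abs_cov_le (d d' : ι × ι) : |cov r d d'| ≤ (r : ℝ) ^ Fintype.card ι := by
  unfold cov
  calc |∑ c : ι → Fin r, chi c d * chi c d'| ≤ ∑ c : ι → Fin r, |chi c d * chi c d'| :=
        Finset.abs_sum_le_sum_abs _ _
    _ ≤ ∑ _c : ι → Fin r, (1 : ℝ) := by
        refine Finset.sum_le_sum (fun c _ => ?_)
        rw [abs_mul]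
        exact mul_le_one₀ (abs_chi_le c d) (abs_nonneg _) (abs_chi_le c d')
    _ = (r : ℝ) ^ Fintype.card ι := by simp

lemma chi_congr {c c' : ι → Fin r} {d : ι × ι} (h1 : c d.1 = c' d.1) (h2 : c d.2 = c' d.2) :
    chi c d = chi c' d := by
  unfold chi; rw [h1, h2]

lemma cov_eq_zero {d d' : ι × ι} (hd : d.1 ≠ d.2) (hd' : d'.1 ≠ d'.2)
    (h1 : d' ≠ d) (h2 : d' ≠ d.swap) : cov r d d' = 0 := by
  obtain ⟨l, l'⟩ := d
  obtain ⟨k, k'⟩ := d'
  simp only at hd hd'
  unfold cov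
  by_cases hk' : k' = l ∨ k' = l'
  · -- then k is not in {l, l'}
    have hk : k ≠ l ∧ k ≠ l' := by
      rcases hk' with h | h
      · subst h
        refine ⟨hd', ?_⟩
        intro h
        subst h
        exact h2 rfl
      · subst h
        refine ⟨?_, hd'⟩
        intro h
        subst h
        exact h1 rfl
    have := sum_chi_mul_eq_zero (r := r) k' k (Ne.symm hd') (fun c => chi c (l, l'))
      (fun c c' h => chi_congr (h _ (Ne.symm hk.1)) (h _ (Ne.symm hk.2)))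
    calc ∑ c : ι → Fin r, chi c (l, l') * chi c (k, k')
        = ∑ c : ι → Fin r, chi c (k', k) * chi c (l, l') := by
          refine Finset.sum_congr rfl (fun c _ => ?_)
          rw [mul_comm]
          congr 1
          exact (chi_swap c (k', k)).symm ▸ rfl
      _ = 0 := this
  · push Not at hk'
    have := sum_chi_mul_eq_zero (r := r) k k' hd' (fun c => chi c (l, l'))
      (fun c c' h => chi_congr (h _ (Ne.symm hk'.1)) (h _ (Ne.symm hk'.2)))
    calc ∑ c : ι → Fin r, chi c (l, l') * chi c (k, k')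
        = ∑ c : ι → Fin r, chi c (k, k') * chi c (l, l') := by
          refine Finset.sum_congr rfl (fun c _ => ?_)
          rw [mul_comm]
      _ = 0 := this


section moment

variable {E : Type*} [NormedAddCommGroup E] [InnerProductSpace ℂ E]

open scoped InnerProductSpace

lemma norm_sq_sum_smul (t : ι × ι → ℝ) (w : ι × ι → E) :
    ‖∑ d, ((t d : ℝ) : ℂ) • w d‖ ^ 2
      = ∑ d, ∑ d', t d * t d' * (⟪w d, w d'⟫_ℂ).re := by
  rw [← inner_self_eq_norm_sq (𝕜 := ℂ), sum_inner]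
  simp only [inner_sum, inner_smul_left, inner_smul_right, Complex.conj_ofReal]
  simp only [RCLike.re_to_complex, Complex.re_sum]
  refine Finset.sum_congr rfl (fun d _ => Finset.sum_congr rfl (fun d' _ => ?_))
  rw [← mul_assoc, ← Complex.ofReal_mul, Complex.re_ofReal_mul]
  ring

lemma abs_re_inner_le (u v : E) : |(⟪u, v⟫_ℂ).re| ≤ ‖u‖ * ‖v‖ :=
  (Complex.abs_re_le_norm _).trans (norm_inner_le_norm u v)

lemma second_moment (w : ι × ι → E) (hw : ∀ l, w (l, l) = 0) :
    ∑ c : ι → Fin r, ‖∑ d, ((chi c d : ℝ) : ℂ) • w d‖ ^ 2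
      ≤ (r : ℝ) ^ Fintype.card ι * (2 * ∑ d, ‖w d‖ ^ 2) := by
  set R : ℝ := (r : ℝ) ^ Fintype.card ι with hR
  have hR0 : 0 ≤ R := by positivity
  have h1 : ∑ c : ι → Fin r, ‖∑ d, ((chi c d : ℝ) : ℂ) • w d‖ ^ 2
      = ∑ d, ∑ d', cov r d d' * (⟪w d, w d'⟫_ℂ).re := by
    simp only [norm_sq_sum_smul]
    rw [Finset.sum_comm]
    refine Finset.sum_congr rfl (fun d _ => ?_)
    rw [Finset.sum_comm]
    refine Finset.sum_congr rfl (fun d' _ => ?_)
    unfold cov
    rw [Finset.sum_mul]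
  rw [h1]
  have h2 : ∀ d : ι × ι, ∑ d', cov r d d' * (⟪w d, w d'⟫_ℂ).re
      ≤ R * (‖w d‖ ^ 2 + ‖w d‖ * ‖w d.swap‖) := by
    intro d
    by_cases hd : d.1 = d.2
    · have hwd : w d = 0 := by
        obtain ⟨l, l'⟩ := d
        simp only at hd
        subst hd
        exact hw l
      simp [hwd]
    · have hne : d ≠ d.swap := by
        intro h
        apply hd
        have := congrArg Prod.fst h
        simpa using this
      have hsub : ∑ d', cov r d d' * (⟪w d, w d'⟫_ℂ).re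
          = ∑ d' ∈ ({d, d.swap} : Finset (ι × ι)), cov r d d' * (⟪w d, w d'⟫_ℂ).re := by
        symm
        apply Finset.sum_subset (Finset.subset_univ _)
        intro d' _ hd'
        simp only [Finset.mem_insert, Finset.mem_singleton, not_or] at hd'
        by_cases hdd : d'.1 = d'.2
        · have hwd : w d' = 0 := by
            obtain ⟨l, l'⟩ := d'
            simp only at hdd
            subst hdd
            exact hw l
          simp [hwd]
        · rw [cov_eq_zero hd hdd hd'.1 hd'.2, zero_mul]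
      rw [hsub, Finset.sum_pair hne]
      have b1 : cov r d d * (⟪w d, w d⟫_ℂ).re ≤ R * ‖w d‖ ^ 2 := by
        calc cov r d d * (⟪w d, w d⟫_ℂ).re ≤ |cov r d d * (⟪w d, w d⟫_ℂ).re| := le_abs_self _
          _ = |cov r d d| * |(⟪w d, w d⟫_ℂ).re| := abs_mul _ _
          _ ≤ R * (‖w d‖ * ‖w d‖) :=
              mul_le_mul (abs_cov_le d d) (abs_re_inner_le _ _) (abs_nonneg _) hR0
          _ = R * ‖w d‖ ^ 2 := by ring
      have b2 : cov r d d.swap * (⟪w d, w d.swap⟫_ℂ).re ≤ R * (‖w d‖ * ‖w d.swap‖) := by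
        calc cov r d d.swap * (⟪w d, w d.swap⟫_ℂ).re
            ≤ |cov r d d.swap * (⟪w d, w d.swap⟫_ℂ).re| := le_abs_self _
          _ = |cov r d d.swap| * |(⟪w d, w d.swap⟫_ℂ).re| := abs_mul _ _
          _ ≤ R * (‖w d‖ * ‖w d.swap‖) :=
              mul_le_mul (abs_cov_le d d.swap) (abs_re_inner_le _ _) (abs_nonneg _) hR0
      nlinarith [b1, b2]
  have h3 : ∑ d : ι × ι, ‖w d.swap‖ ^ 2 = ∑ d : ι × ι, ‖w d‖ ^ 2 :=
    Equiv.sum_comp (Equiv.prodComm ι ι) (fun d => ‖w d‖ ^ 2)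
  calc ∑ d, ∑ d', cov r d d' * (⟪w d, w d'⟫_ℂ).re
      ≤ ∑ d : ι × ι, R * (‖w d‖ ^ 2 + ‖w d‖ * ‖w d.swap‖) := Finset.sum_le_sum (fun d _ => h2 d)
    _ ≤ ∑ d : ι × ι, R * (‖w d‖ ^ 2 + (‖w d‖ ^ 2 + ‖w d.swap‖ ^ 2) / 2) := by
        refine Finset.sum_le_sum (fun d _ => ?_)
        apply mul_le_mul_of_nonneg_left _ hR0
        nlinarith [sq_nonneg (‖w d‖ - ‖w d.swap‖)]
    _ = R * (2 * ∑ d, ‖w d‖ ^ 2) := by
        rw [← Finset.mul_sum, Finset.sum_add_distrib, ← Finset.sum_div, Finset.sum_add_distrib, h3]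
        ring

/-- there is a colouring at most as bad as the average -/
lemma exists_good_colouring (w : ι × ι → E) (hw : ∀ l, w (l, l) = 0) :
    ∃ c : ι → Fin r, ‖∑ d, ((chi c d : ℝ) : ℂ) • w d‖ ^ 2 ≤ 2 * ∑ d, ‖w d‖ ^ 2 := by
  by_contra hcon
  push Not at hcon
  have h := second_moment (r := r) w hw
  have hlt : ∑ _c : ι → Fin r, (2 * ∑ d, ‖w d‖ ^ 2)
      < ∑ c : ι → Fin r, ‖∑ d, ((chi c d : ℝ) : ℂ) • w d‖ ^ 2 :=
    Finset.sum_lt_sum_of_nonempty Finset.univ_nonempty (fun c _ => hcon c)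
  simp only [Finset.sum_const, Finset.card_univ, Fintype.card_pi, Finset.prod_const,
    Fintype.card_fin, nsmul_eq_mul, Nat.cast_pow] at hlt
  linarith

/-- family version: one colouring that is good for finitely many vector families at once -/
lemma exists_good_colouring_family {κ : Type*} [Fintype κ] (w : κ → ι × ι → E)
    (hw : ∀ k l, w k (l, l) = 0) :
    ∃ c : ι → Fin r, ∑ k, ‖∑ d, ((chi c d : ℝ) : ℂ) • w k d‖ ^ 2 ≤ 2 * ∑ k, ∑ d, ‖w k d‖ ^ 2 := by
  by_contra hcon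
  push Not at hcon
  have h : ∑ c : ι → Fin r, ∑ k, ‖∑ d, ((chi c d : ℝ) : ℂ) • w k d‖ ^ 2
      ≤ (r : ℝ) ^ Fintype.card ι * (2 * ∑ k, ∑ d, ‖w k d‖ ^ 2) := by
    rw [Finset.sum_comm]
    calc ∑ k, ∑ c : ι → Fin r, ‖∑ d, ((chi c d : ℝ) : ℂ) • w k d‖ ^ 2
        ≤ ∑ k, (r : ℝ) ^ Fintype.card ι * (2 * ∑ d, ‖w k d‖ ^ 2) :=
          Finset.sum_le_sum (fun k _ => second_moment (r := r) (w k) (hw k))
      _ = (r : ℝ) ^ Fintype.card ι * (2 * ∑ k, ∑ d, ‖w k d‖ ^ 2) := by
          rw [← Finset.mul_sum, ← Finset.mul_sum]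
  have hlt : ∑ _c : ι → Fin r, (2 * ∑ k, ∑ d, ‖w k d‖ ^ 2)
      < ∑ c : ι → Fin r, ∑ k, ‖∑ d, ((chi c d : ℝ) : ℂ) • w k d‖ ^ 2 :=
    Finset.sum_lt_sum_of_nonempty Finset.univ_nonempty (fun c _ => hcon c)
  simp only [Finset.sum_const, Finset.card_univ, Fintype.card_pi, Finset.prod_const,
    Fintype.card_fin, nsmul_eq_mul, Nat.cast_pow] at hlt
  linarith

end moment

end Vale.Agent.Lib.P078
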