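import Vale.Agent.Lib.P078.Defs
import Vale.Agent.Lib.P078.Prob
import Vale.Agent.Lib.P078.Hilb

namespace Vale.Agent.Lib.P078

open scoped InnerProductSpace

set_option linter.unusedSectionVars false

variable {H : Type*} [NormedAddCommGroup H] [InnerProductSpace ℂ H] [CompleteSpace H]

/-- a fine partition `f` in `S` compatible with a coarse orthonormal system `e` -/
structure FineData (S : Set (H →L[ℂ] H)) {m : ℕ} (e : Fin m → H) (η : ℝ) {L : ℕ}
    (f : Fin L → H →L[ℂ] H) (π : Fin L → Fin m) : Prop where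
  mem : ∀ l, f l ∈ S
  pou : POU f
  off : ∀ l j, π l ≠ j → f l (e j) = 0
  small : ∀ l, ‖f l (e (π l))‖ ^ 2 ≤ η

/-- the family `S` of projections divides every finite set of vectors finely -/
def FinelyDivisible (S : Set (H →L[ℂ] H)) : Prop :=
  ∀ (F : Finset H) (δ : ℝ), 0 < δ → ∃ (m : ℕ) (e : Fin m → H), Orthonormal ℂ e ∧
    (∀ ξ ∈ F, ‖ξ - projOn e ξ‖ < δ) ∧
    ∀ η : ℝ, 0 < η → ∃ (L : ℕ) (f : Fin L → H →L[ℂ] H) (π : Fin L → Fin m), FineData S e η f π

namespace FineData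

variable {S : Set (H →L[ℂ] H)} {m : ℕ} {e : Fin m → H} {η : ℝ} {L : ℕ}
  {f : Fin L → H →L[ℂ] H} {π : Fin L → Fin m}

lemma apply_basis (hD : FineData S e η f π) (l : Fin L) (j : Fin m) :
    f l (e j) = if π l = j then f l (e (π l)) else 0 := by
  split_ifs with h
  · rw [h]
  · exact hD.off l j h

lemma apply_projOn (hD : FineData S e η f π) (l : Fin L) (ξ : H) :
    f l (projOn e ξ) = ⟪e (π l), ξ⟫_ℂ • f l (e (π l)) := by
  rw [projOn_apply, map_sum, Finset.sum_eq_single (π l)]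
  · rw [map_smul]
  · intro j _ hj
    rw [map_smul, hD.off l j (Ne.symm hj), smul_zero]
  · intro h; exact absurd (Finset.mem_univ _) h

lemma projOn_apply_f (hD : FineData S e η f π) (l : Fin L) (w : H) :
    projOn e (f l w) = ⟪f l (e (π l)), w⟫_ℂ • e (π l) := by
  rw [projOn_apply, Finset.sum_eq_single (π l)]
  · rw [hD.pou.inner_left]
  · intro j _ hj
    rw [← hD.pou.inner_left, hD.off l j (Ne.symm hj), inner_zero_left, zero_smul]
  · intro h; exact absurd (Finset.mem_univ _) h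

lemma norm_projOn_apply_f_sq_le (hD : FineData S e η f π) (he : Orthonormal ℂ e)
    (l : Fin L) (w : H) : ‖projOn e (f l w)‖ ^ 2 ≤ η * ‖f l w‖ ^ 2 := by
  rw [hD.projOn_apply_f, norm_smul, he.1, mul_one]
  have h1 : ⟪f l (e (π l)), w⟫_ℂ = ⟪f l (e (π l)), f l w⟫_ℂ := by
    rw [← hD.pou.inner_left l (f l (e (π l))) w, hD.pou.idem]
  rw [h1]
  calc ‖⟪f l (e (π l)), f l w⟫_ℂ‖ ^ 2 ≤ (‖f l (e (π l))‖ * ‖f l w‖) ^ 2 :=
        pow_le_pow_left₀ (norm_nonneg _) (norm_inner_le_norm _ _) 2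
    _ = ‖f l (e (π l))‖ ^ 2 * ‖f l w‖ ^ 2 := by ring
    _ ≤ η * ‖f l w‖ ^ 2 := mul_le_mul_of_nonneg_right (hD.small l) (by positivity)

lemma sum_norm_projOn_apply_f_sq_le (hD : FineData S e η f π) (he : Orthonormal ℂ e) (w : H) :
    ∑ l, ‖projOn e (f l w)‖ ^ 2 ≤ η * ‖w‖ ^ 2 := by
  calc ∑ l, ‖projOn e (f l w)‖ ^ 2 ≤ ∑ l, η * ‖f l w‖ ^ 2 :=
        Finset.sum_le_sum (fun l _ => hD.norm_projOn_apply_f_sq_le he l w)
    _ = η * ‖w‖ ^ 2 := by rw [← Finset.mul_sum, hD.pou.sum_norm_sq]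

end FineData

section pinch

variable {L r : ℕ} {f : Fin L → H →L[ℂ] H}

lemma pinching_group (x : H →L[ℂ] H) (c : Fin L → Fin r) :
    pinching (POU.group f c) x
      = ∑ d : Fin L × Fin L, (if c d.1 = c d.2 then (1 : ℂ) else 0) • (f d.1 * x * f d.2) := by
  unfold pinching POU.group
  have h1 : ∀ i : Fin r, (∑ l, if c l = i then f l else 0) * x * (∑ l, if c l = i then f l else 0)
      = ∑ l, ∑ l', (if c l = i then f l else 0) * x * (if c l' = i then f l' else 0) := by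
    intro i
    rw [Finset.sum_mul, Finset.sum_mul]
    refine Finset.sum_congr rfl (fun l _ => ?_)
    rw [Finset.mul_sum]
  simp only [h1]
  rw [Fintype.sum_prod_type]
  rw [Finset.sum_comm]
  refine Finset.sum_congr rfl (fun l _ => ?_)
  rw [Finset.sum_comm]
  refine Finset.sum_congr rfl (fun l' _ => ?_)
  rw [Finset.sum_eq_single (c l)]
  · by_cases h : c l = c l'
    · simp [h]
    · have h' : ¬ c l' = c l := fun h2 => h h2.symm
      simp [h, h']
  · intro i _ hi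
    have : ¬ c l = i := fun h => hi h.symm
    simp [this]
  · intro h; exact absurd (Finset.mem_univ _) h

lemma eq_sum_corners (hf : POU f) (x : H →L[ℂ] H) :
    x = ∑ d : Fin L × Fin L, f d.1 * x * f d.2 := by
  rw [Fintype.sum_prod_type]
  simp only [← Finset.mul_sum, ← Finset.sum_mul]
  rw [hf.sum_eq, one_mul, mul_one]

lemma diag_eq_sum (x : H →L[ℂ] H) :
    ∑ l, f l * x * f l
      = ∑ d : Fin L × Fin L, (if d.1 = d.2 then (1 : ℂ) else 0) • (f d.1 * x * f d.2) := by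
  rw [Fintype.sum_prod_type]
  refine Finset.sum_congr rfl (fun l _ => ?_)
  rw [Finset.sum_eq_single l]
  · simp
  · intro l' _ hl'
    have : ¬ l = l' := fun h => hl' h.symm
    simp [this]
  · intro h; exact absurd (Finset.mem_univ _) h

/-- the fluctuation operator of a colouring -/
noncomputable def fluct (f : Fin L → H →L[ℂ] H) (x : H →L[ℂ] H) (c : Fin L → Fin r) :
    H →L[ℂ] H :=
  ∑ d : Fin L × Fin L, ((chi c d : ℝ) : ℂ) • (if d.1 = d.2 then 0 else f d.1 * x * f d.2)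

lemma pinching_decomp (hf : POU f) (x : H →L[ℂ] H) (c : Fin L → Fin r) :
    pinching (POU.group f c) x
      = ((1 / (r : ℝ) : ℝ) : ℂ) • x + fluct f x c
        + ((1 - 1 / (r : ℝ) : ℝ) : ℂ) • ∑ l, f l * x * f l := by
  rw [pinching_group, diag_eq_sum]
  have hx : ((1 / (r : ℝ) : ℝ) : ℂ) • x
      = ∑ d : Fin L × Fin L, ((1 / (r : ℝ) : ℝ) : ℂ) • (f d.1 * x * f d.2) := by
    rw [← Finset.smul_sum, ← eq_sum_corners hf x]
  rw [hx]
  unfold fluct
  rw [Finset.smul_sum, ← Finset.sum_add_distrib, ← Finset.sum_add_distrib]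
  refine Finset.sum_congr rfl (fun d _ => ?_)
  by_cases hd : d.1 = d.2
  · have hc : c d.1 = c d.2 := by rw [hd]
    simp only [hd, if_true, smul_zero, add_zero, one_smul]
    rw [← add_smul, ← Complex.ofReal_add]
    simp
  · simp only [hd, if_false, zero_smul, smul_zero, add_zero]
    rw [← add_smul]
    congr 1
    unfold chi
    split_ifs <;> push_cast <;> ring

end pinch

lemma sa_inner_real {x : H →L[ℂ] H} (hx : IsSelfAdjoint x) (b : H) :
    ⟪b, x b⟫_ℂ = (((⟪b, x b⟫_ℂ).re : ℝ) : ℂ) := by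
  have h : (starRingEnd ℂ) ⟪b, x b⟫_ℂ = ⟪b, x b⟫_ℂ := by
    rw [inner_conj_symm, sa_inner hx]
  exact ((Complex.conj_eq_iff_real.mp h).choose_spec ▸ by simp)

/-- the diagonal coefficients -/
noncomputable def tcoef {m L : ℕ} (e : Fin m → H) (f : Fin L → H →L[ℂ] H) (π : Fin L → Fin m)
    (x : H →L[ℂ] H) (l : Fin L) : ℝ :=
  (⟪f l (e (π l)), x (f l (e (π l)))⟫_ℂ).re / ‖f l (e (π l))‖ ^ 2

lemma abs_tcoef_le {m L : ℕ} (e : Fin m → H) (f : Fin L → H →L[ℂ] H) (π : Fin L → Fin m)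
    (x : H →L[ℂ] H) (l : Fin L) : |tcoef e f π x l| ≤ ‖x‖ := by
  unfold tcoef
  set b := f l (e (π l))
  by_cases hb : ‖b‖ ^ 2 = 0
  · rw [hb]; simp
  · have hpos : 0 < ‖b‖ ^ 2 := lt_of_le_of_ne (by positivity) (Ne.symm hb)
    rw [abs_div, abs_of_pos hpos, div_le_iff₀ hpos]
    calc |(⟪b, x b⟫_ℂ).re| ≤ ‖b‖ * ‖x b‖ := abs_re_inner_le _ _
      _ ≤ ‖b‖ * (‖x‖ * ‖b‖) := by
          apply mul_le_mul_of_nonneg_left (x.le_opNorm b) (norm_nonneg _)
      _ = ‖x‖ * ‖b‖ ^ 2 := by ring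

namespace FineData

variable {S : Set (H →L[ℂ] H)} {m : ℕ} {e : Fin m → H} {η : ℝ} {L : ℕ}
  {f : Fin L → H →L[ℂ] H} {π : Fin L → Fin m}

lemma inner_b_e (hD : FineData S e η f π) (l : Fin L) :
    ⟪f l (e (π l)), e (π l)⟫_ℂ = ((‖f l (e (π l))‖ ^ 2 : ℝ) : ℂ) := by
  conv_lhs => rw [← hD.pou.idem l (e (π l)), hD.pou.inner_left]
  rw [inner_self_eq_norm_sq_to_K]
  simp

lemma compress_diag (hD : FineData S e η f π) {x : H →L[ℂ] H} (hx : IsSelfAdjoint x) :
    projOn e * (∑ l, f l * x * f l) * projOn e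
      = projOn e * (∑ l, ((tcoef e f π x l : ℝ) : ℂ) • f l) * projOn e := by
  ext ξ
  simp only [mul_apply_eq_comp, sum_apply, map_sum, smul_apply]
  refine Finset.sum_congr rfl (fun l _ => ?_)
  rw [hD.apply_projOn]
  simp only [map_smul]
  rw [hD.projOn_apply_f l (x (f l (e (π l)))), hD.projOn_apply_f l (e (π l)), hD.inner_b_e,
    sa_inner_real hx]
  simp only [smul_smul]
  congr 1
  unfold tcoef
  set b := f l (e (π l))
  by_cases hb : ‖b‖ ^ 2 = 0
  · have hb0 : b = 0 := by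
      have : ‖b‖ = 0 := by simpa using hb
      exact norm_eq_zero.mp this
    simp [hb0]
  · rw [mul_comm (((⟪b, x b⟫_ℂ).re / ‖b‖ ^ 2 : ℝ) : ℂ), mul_assoc, ← Complex.ofReal_mul,
      mul_div_cancel₀ _ hb]

end FineData

lemma mem_fullAlgebra (T : H →L[ℂ] H) : T ∈ fullAlgebra H := by
  show T ∈ (⊤ : StarSubalgebra ℂ (H →L[ℂ] H))
  exact StarSubalgebra.mem_top

lemma FineData.sum_W_le {S : Set (H →L[ℂ] H)} {m : ℕ} {e : Fin m → H} {η : ℝ} {L : ℕ}
    {f : Fin L → H →L[ℂ] H} {π : Fin L → Fin m} (hD : FineData S e η f π)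
    (he : Orthonormal ℂ e) (hη : 0 ≤ η) (x : H →L[ℂ] H) (k : Fin m) :
    ∑ d : Fin L × Fin L,
      ‖(if d.1 = d.2 then (0 : H) else projOn e (f d.1 (x (f d.2 (e k)))))‖ ^ 2
      ≤ η * ‖x‖ ^ 2 := by
  calc ∑ d : Fin L × Fin L,
        ‖(if d.1 = d.2 then (0 : H) else projOn e (f d.1 (x (f d.2 (e k)))))‖ ^ 2
      ≤ ∑ d : Fin L × Fin L, ‖projOn e (f d.1 (x (f d.2 (e k))))‖ ^ 2 := by
        refine Finset.sum_le_sum (fun d _ => ?_)
        split_ifs
        · simp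
        · exact le_refl _
    _ = ∑ l', ∑ l, ‖projOn e (f l (x (f l' (e k))))‖ ^ 2 := by
        rw [Fintype.sum_prod_type, Finset.sum_comm]
    _ ≤ ∑ l', η * ‖x (f l' (e k))‖ ^ 2 :=
        Finset.sum_le_sum (fun l' _ => hD.sum_norm_projOn_apply_f_sq_le he _)
    _ ≤ ∑ l', η * (‖x‖ ^ 2 * ‖f l' (e k)‖ ^ 2) := by
        refine Finset.sum_le_sum (fun l' _ => ?_)
        apply mul_le_mul_of_nonneg_left _ hη
        rw [← mul_pow]
        exact pow_le_pow_left₀ (norm_nonneg _) (x.le_opNorm _) 2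
    _ = η * ‖x‖ ^ 2 := by
        rw [← Finset.mul_sum, ← Finset.mul_sum, hD.pou.sum_norm_sq, he.1 k]
        ring

theorem soPavable_of_finelyDivisible {S : Set (H →L[ℂ] H)} {A : StarSubalgebra ℂ (H →L[ℂ] H)}
    (hSA : S ⊆ A) (hS : FinelyDivisible S) {x : H →L[ℂ] H} (hx : IsSelfAdjoint x)
    {ε : ℝ} {r : ℕ} (hr : 1 < r * ε) : SoPavable (fullAlgebra H) A x ε r := by
  intro F δ hδ
  obtain ⟨m, e, he, happ, hfine⟩ := hS F δ hδ
  have hr0 : r ≠ 0 := by
    rintro rfl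
    simp at hr
    linarith
  haveI : NeZero r := ⟨hr0⟩
  have hrpos : (0 : ℝ) < r := by exact_mod_cast Nat.pos_of_ne_zero hr0
  have hr1 : (1 : ℝ) ≤ r := by exact_mod_cast Nat.one_le_iff_ne_zero.mpr hr0
  set γ : ℝ := ε - 1 / r with hγ
  have hγpos : 0 < γ := by
    rw [hγ, sub_pos, div_lt_iff₀ hrpos]
    linarith
  set η : ℝ := γ ^ 2 / (2 * (m + 1)) with hη
  have hηpos : 0 < η := by positivity
  obtain ⟨L, f, π, hD⟩ := hfine η hηpos
  let W : Fin m → Fin L × Fin L → H := fun k d =>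
    if d.1 = d.2 then 0 else projOn e (f d.1 (x (f d.2 (e k))))
  obtain ⟨c, hc⟩ := exists_good_colouring_family (r := r) W (by intro k l; simp [W])
  have hq : IsStarProjection (projOn e) := projOn_isStarProjection he
  have hq1 : ‖projOn e‖ ≤ 1 := IsStarProjection.norm_le _ hq
  have h01 : 0 ≤ 1 - 1 / (r : ℝ) := by
    rw [sub_nonneg, div_le_one hrpos]; exact hr1
  have h01' : 1 - 1 / (r : ℝ) ≤ 1 := by
    have : 0 < 1 / (r : ℝ) := by positivity
    linarith
  refine ⟨POU.group f c, ∑ l, (((1 - 1 / (r : ℝ)) * tcoef e f π x l : ℝ) : ℂ) • f l, projOn e,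
    ?_, ?_, ?_, ?_, mem_fullAlgebra _, hq, ?_, ?_⟩
  · refine ⟨fun i => ?_, fun i => hD.pou.group_isStarProjection c i, fun i j hij => ?_,
      hD.pou.sum_group c⟩
    · unfold POU.group
      refine sum_mem (fun l _ => ?_)
      split_ifs
      · exact hSA (hD.mem l)
      · exact zero_mem _
    · rw [hD.pou.group_mul_group, if_neg hij]
  · exact sum_mem (fun l _ => A.smul_mem (hSA (hD.mem l)) _)
  · exact hD.pou.isSelfAdjoint_sum_smul _
  · apply hD.pou.norm_sum_smul_le _ _ (norm_nonneg _)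
    intro l
    rw [Complex.norm_real, Real.norm_eq_abs, abs_mul, abs_of_nonneg h01]
    calc (1 - 1 / (r : ℝ)) * |tcoef e f π x l| ≤ 1 * ‖x‖ :=
          mul_le_mul h01' (abs_tcoef_le e f π x l) (abs_nonneg _) zero_le_one
      _ = ‖x‖ := one_mul _
  · intro ξ hξ
    simpa using happ ξ hξ
  · have ha : ∑ l, (((1 - 1 / (r : ℝ)) * tcoef e f π x l : ℝ) : ℂ) • f l
        = ((1 - 1 / (r : ℝ) : ℝ) : ℂ) • ∑ l, ((tcoef e f π x l : ℝ) : ℂ) • f l := by
      rw [Finset.smul_sum]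
      refine Finset.sum_congr rfl (fun l _ => ?_)
      rw [smul_smul, ← Complex.ofReal_mul]
    have key : projOn e * (pinching (POU.group f c) x
          - ∑ l, (((1 - 1 / (r : ℝ)) * tcoef e f π x l : ℝ) : ℂ) • f l) * projOn e
        = ((1 / (r : ℝ) : ℝ) : ℂ) • (projOn e * x * projOn e)
          + (projOn e * fluct f x c) * projOn e := by
      rw [ha, pinching_decomp hD.pou]
      have h := hD.compress_diag hx
      simp only [mul_add, add_mul, mul_sub, sub_mul, mul_smul_comm, smul_mul_assoc]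
      rw [h]
      abel
    rw [key]
    have hfl : ∀ k, (projOn e * fluct f x c) (e k) = ∑ d, ((chi c d : ℝ) : ℂ) • W k d := by
      intro k
      unfold fluct
      simp only [mul_apply_eq_comp, sum_apply, map_sum, smul_apply, map_smul]
      refine Finset.sum_congr rfl (fun d _ => ?_)
      congr 1
      simp only [W]
      split_ifs
      · simp
      · simp [mul_apply_eq_comp]
    have hsum : ∑ k, ‖(projOn e * fluct f x c) (e k)‖ ^ 2 ≤ (γ * ‖x‖) ^ 2 := by
      simp only [hfl]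
      calc ∑ k, ‖∑ d, ((chi c d : ℝ) : ℂ) • W k d‖ ^ 2 ≤ 2 * ∑ k, ∑ d, ‖W k d‖ ^ 2 := hc
        _ ≤ 2 * ∑ _k : Fin m, η * ‖x‖ ^ 2 := by
            apply mul_le_mul_of_nonneg_left _ (by norm_num)
            exact Finset.sum_le_sum (fun k _ => hD.sum_W_le he hηpos.le x k)
        _ = (γ ^ 2 * ‖x‖ ^ 2) * (m / (m + 1)) := by
            simp only [Finset.sum_const, Finset.card_univ, Fintype.card_fin, nsmul_eq_mul, hη]
            field_simp
        _ ≤ (γ ^ 2 * ‖x‖ ^ 2) * 1 := by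
            apply mul_le_mul_of_nonneg_left _ (by positivity)
            rw [div_le_one (by positivity)]
            linarith
        _ = (γ * ‖x‖) ^ 2 := by ring
    have h2 : ‖(projOn e * fluct f x c) * projOn e‖ ≤ γ * ‖x‖ := by
      refine (norm_comp_projOn_le he _).trans ?_
      rw [← Real.sqrt_sq (by positivity : 0 ≤ γ * ‖x‖)]
      exact Real.sqrt_le_sqrt hsum
    have h1 : ‖((1 / (r : ℝ) : ℝ) : ℂ) • (projOn e * x * projOn e)‖ ≤ 1 / (r : ℝ) * ‖x‖ := by
      rw [norm_smul, Complex.norm_real, Real.norm_eq_abs, abs_of_pos (by positivity)]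
      apply mul_le_mul_of_nonneg_left _ (by positivity)
      calc ‖projOn e * x * projOn e‖ ≤ ‖projOn e‖ * ‖x‖ * ‖projOn e‖ :=
            (norm_mul_le _ _).trans (mul_le_mul_of_nonneg_right (norm_mul_le _ _) (norm_nonneg _))
        _ ≤ 1 * ‖x‖ * 1 := by
            apply mul_le_mul _ hq1 (norm_nonneg _) (by positivity)
            exact mul_le_mul_of_nonneg_right hq1 (norm_nonneg _)
        _ = ‖x‖ := by ring
    calc ‖((1 / (r : ℝ) : ℝ) : ℂ) • (projOn e * x * projOn e)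
          + (projOn e * fluct f x c) * projOn e‖
        ≤ 1 / (r : ℝ) * ‖x‖ + γ * ‖x‖ := (norm_add_le _ _).trans (add_le_add h1 h2)
      _ = ε * ‖x‖ := by rw [hγ]; ring

end Vale.Agent.Lib.P078
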