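import Vale.Agent.Lib.P078.Model
import Vale.Agent.Lib.P078.Upper

namespace Vale.Agent.Lib.P078

open MeasureTheory
open scoped InnerProductSpace

set_option linter.unusedSectionVars false

lemma indMul_coeFn {s : Set ℝ} (hs : MeasurableSet s) (g : L2I) :
    ⇑(indMul s g) =ᵐ[mu01] s.indicator ⇑g := by
  unfold indMul
  rw [dif_pos hs]
  simp only [ContinuousLinearMap.holderL_apply_apply]
  filter_upwards [ContinuousLinearMap.coeFn_holder (r := 2) (ContinuousLinearMap.mul ℂ ℂ)
    (indicatorConstLp ⊤ hs (measure_ne_top mu01 s) (1 : ℂ)) g,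
    indicatorConstLp_coeFn (p := ⊤) (hs := hs) (hμs := measure_ne_top mu01 s) (c := (1 : ℂ))]
    with x h1 h2
  rw [h1, h2]
  by_cases hx : x ∈ s <;> simp [hx]

lemma indMul_mul {s t : Set ℝ} (hs : MeasurableSet s) (ht : MeasurableSet t) :
    indMul s * indMul t = indMul (s ∩ t) := by
  refine ContinuousLinearMap.ext (fun g => Lp.ext ?_)
  simp only [mul_apply_eq_comp]
  filter_upwards [indMul_coeFn hs (indMul t g), indMul_coeFn ht g, indMul_coeFn (hs.inter ht) g]
    with x h1 h2 h3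
  rw [h1, h3]
  by_cases hxs : x ∈ s <;> by_cases hxt : x ∈ t <;> simp [hxs, hxt, h2]

lemma indMul_empty : indMul ∅ = 0 := by
  refine ContinuousLinearMap.ext (fun g => Lp.ext ?_)
  rw [zero_apply]
  filter_upwards [indMul_coeFn MeasurableSet.empty g, Lp.coeFn_zero ℂ 2 mu01] with x h1 h2
  rw [h1, h2]
  simp

lemma indMul_isSelfAdjoint {s : Set ℝ} (hs : MeasurableSet s) : IsSelfAdjoint (indMul s) := by
  rw [ContinuousLinearMap.isSelfAdjoint_iff_isSymmetric]
  intro g h
  simp only [ContinuousLinearMap.coe_coe]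
  rw [L2.inner_def, L2.inner_def]
  apply integral_congr_ae
  filter_upwards [indMul_coeFn hs g, indMul_coeFn hs h] with x h1 h2
  rw [h1, h2]
  by_cases hx : x ∈ s <;> simp [hx]

lemma indMul_isStarProjection {s : Set ℝ} (hs : MeasurableSet s) :
    IsStarProjection (indMul s) := by
  rw [isStarProjection_iff]
  refine ⟨?_, indMul_isSelfAdjoint hs⟩
  rw [IsIdempotentElem, indMul_mul hs hs, Set.inter_self]

lemma indMul_comm {s t : Set ℝ} (hs : MeasurableSet s) (ht : MeasurableSet t) :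
    indMul s * indMul t = indMul t * indMul s := by
  rw [indMul_mul hs ht, indMul_mul ht hs, Set.inter_comm]

lemma indSet_sa : ∀ g ∈ indSet, IsSelfAdjoint g := by
  rintro g ⟨s, hs, rfl⟩
  exact indMul_isSelfAdjoint hs

lemma indSet_comm : ∀ g ∈ indSet, ∀ g' ∈ indSet, g * g' = g' * g := by
  rintro g ⟨s, hs, rfl⟩ g' ⟨t, ht, rfl⟩
  exact indMul_comm hs ht

/-- the grid cell `[l/n, (l+1)/n)` -/
def cell (n l : ℕ) : Set ℝ := Set.Ico ((l : ℝ) / n) (((l : ℝ) + 1) / n)

lemma measurableSet_cell (n l : ℕ) : MeasurableSet (cell n l) := measurableSet_Ico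

lemma mem_cell_iff {n : ℕ} (hn : 0 < n) (l : ℕ) (x : ℝ) :
    x ∈ cell n l ↔ (l : ℝ) ≤ n * x ∧ n * x < (l : ℝ) + 1 := by
  have hn' : (0 : ℝ) < n := by exact_mod_cast hn
  unfold cell
  rw [Set.mem_Ico, div_le_iff₀ hn', lt_div_iff₀ hn']
  constructor <;> rintro ⟨h1, h2⟩ <;> constructor <;> linarith

lemma cell_disjoint {n : ℕ} (hn : 0 < n) {l l' : ℕ} (h : l ≠ l') : cell n l ∩ cell n l' = ∅ := by
  ext x
  simp only [Set.mem_inter_iff, mem_cell_iff hn, Set.mem_empty_iff_false, iff_false]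
  rintro ⟨⟨h1, h2⟩, ⟨h3, h4⟩⟩
  apply h
  have a : (l : ℝ) < (l' : ℝ) + 1 := by linarith
  have b : (l' : ℝ) < (l : ℝ) + 1 := by linarith
  have a' : l < l' + 1 := by exact_mod_cast a
  have b' : l' < l + 1 := by exact_mod_cast b
  omega

lemma exists_cell {n : ℕ} (hn : 0 < n) {x : ℝ} (hx : x ∈ Set.Ico (0 : ℝ) 1) :
    ∃ l : Fin n, x ∈ cell n l := by
  have hn' : (0 : ℝ) < n := by exact_mod_cast hn
  have h0 : 0 ≤ (n : ℝ) * x := mul_nonneg hn'.le hx.1
  have hlt : ⌊(n : ℝ) * x⌋₊ < n := by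
    rw [Nat.floor_lt h0]
    nlinarith [hx.2]
  refine ⟨⟨⌊(n : ℝ) * x⌋₊, hlt⟩, ?_⟩
  rw [mem_cell_iff hn]
  exact ⟨Nat.floor_le h0, Nat.lt_floor_add_one _⟩

lemma ae_mem_Ico : ∀ᵐ x ∂mu01, x ∈ Set.Ico (0 : ℝ) 1 := by
  unfold mu01
  exact ae_restrict_mem measurableSet_Ico

lemma sum_indicator_cell {n : ℕ} (hn : 0 < n) {x : ℝ} (hx : x ∈ Set.Ico (0 : ℝ) 1)
    (g : ℝ → ℂ) : ∑ l : Fin n, (cell n l).indicator g x = g x := by
  obtain ⟨l, hl⟩ := exists_cell hn hx
  rw [Finset.sum_eq_single l]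
  · simp [hl]
  · intro l' _ hl'
    have hne : (l' : ℕ) ≠ (l : ℕ) := fun h => hl' (Fin.ext h)
    have : x ∉ cell n l' := by
      intro hx'
      have : x ∈ cell n l' ∩ cell n l := ⟨hx', hl⟩
      rw [cell_disjoint hn hne] at this
      exact this
    simp [this]
  · intro h; exact absurd (Finset.mem_univ _) h

lemma pou_grid {n : ℕ} (hn : 0 < n) : POU (fun l : Fin n => indMul (cell n l)) := by
  refine ⟨fun l => indMul_isStarProjection (measurableSet_cell n l), fun l l' h => ?_, ?_⟩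
  · have hne : (l : ℕ) ≠ (l' : ℕ) := fun h' => h (Fin.ext h')
    rw [indMul_mul (measurableSet_cell n l) (measurableSet_cell n l'), cell_disjoint hn hne,
      indMul_empty]
  · refine ContinuousLinearMap.ext (fun g => Lp.ext ?_)
    rw [sum_apply]
    have h1 : ∀ l : Fin n, ⇑(indMul (cell n l) g) =ᵐ[mu01] (cell n l).indicator ⇑g :=
      fun l => indMul_coeFn (measurableSet_cell n l) g
    have h2 : ∀ᵐ x ∂mu01, ∀ l : Fin n, (indMul (cell n l) g) x = (cell n l).indicator ⇑g x :=
      ae_all_iff.mpr h1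
    filter_upwards [Lp.coeFn_fun_finsetSum (Finset.univ) (fun l : Fin n => indMul (cell n l) g),
      h2, ae_mem_Ico] with x h3 h4 h5
    rw [h3]
    simp only [h4]
    rw [sum_indicator_cell hn h5]
    rfl

open Classical in
/-- the indicator function of `t` as an element of `L²[0,1)` -/
noncomputable def ind (t : Set ℝ) : L2I :=
  if ht : MeasurableSet t then indicatorConstLp 2 ht (measure_ne_top mu01 t) (1 : ℂ) else 0

lemma ind_coeFn {t : Set ℝ} (ht : MeasurableSet t) :
    ⇑(ind t) =ᵐ[mu01] t.indicator (fun _ => (1 : ℂ)) := by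
  unfold ind
  rw [dif_pos ht]
  exact indicatorConstLp_coeFn

lemma indMul_ind {s t : Set ℝ} (hs : MeasurableSet s) (ht : MeasurableSet t) :
    indMul s (ind t) = ind (s ∩ t) := by
  apply Lp.ext
  filter_upwards [indMul_coeFn hs (ind t), ind_coeFn ht, ind_coeFn (hs.inter ht)] with x h1 h2 h3
  rw [h1, h3]
  by_cases hxs : x ∈ s <;> by_cases hxt : x ∈ t <;> simp [hxs, hxt, h2]

lemma ind_empty : ind ∅ = 0 := by
  unfold ind
  rw [dif_pos MeasurableSet.empty]
  exact indicatorConstLp_empty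

lemma inner_ind_ind {s t : Set ℝ} (hs : MeasurableSet s) (ht : MeasurableSet t) :
    ⟪ind s, ind t⟫_ℂ = ((mu01.real (s ∩ t) : ℝ) : ℂ) := by
  unfold ind
  rw [dif_pos hs, dif_pos ht]
  exact L2.inner_indicatorConstLp_one_indicatorConstLp_one hs ht _ _

lemma norm_ind_sq {s : Set ℝ} (hs : MeasurableSet s) : ‖ind s‖ ^ 2 = mu01.real s := by
  have h := inner_ind_ind hs hs
  rw [Set.inter_self, inner_self_eq_norm_sq_to_K] at h
  have h2 : (((‖ind s‖ ^ 2 : ℝ)) : ℂ) = ((mu01.real s : ℝ) : ℂ) := by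
    rw [← h]; simp
  exact Complex.ofReal_injective h2

lemma cell_subset {n : ℕ} (hn : 0 < n) (l : Fin n) : cell n l ⊆ Set.Ico (0 : ℝ) 1 := by
  have hn' : (0 : ℝ) < n := by exact_mod_cast hn
  intro x hx
  rw [mem_cell_iff hn] at hx
  have hl : ((l : ℕ) : ℝ) + 1 ≤ n := by exact_mod_cast l.2
  have h0 : (0 : ℝ) ≤ ((l : ℕ) : ℝ) := by positivity
  constructor
  · by_contra h
    push Not at h
    nlinarith [hx.1]
  · by_contra h
    push Not at h
    nlinarith [hx.2]

lemma mu01_real_cell {n : ℕ} (hn : 0 < n) (l : Fin n) : mu01.real (cell n l) = 1 / n := by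
  have hn' : (0 : ℝ) < n := by exact_mod_cast hn
  unfold mu01 Measure.real
  rw [Measure.restrict_apply (measurableSet_cell n l),
    Set.inter_eq_left.mpr (cell_subset hn l)]
  unfold cell
  rw [Real.volume_Ico, ENNReal.toReal_ofReal]
  · field_simp; ring
  · have : ((l : ℕ) : ℝ) / n ≤ (((l : ℕ) : ℝ) + 1) / n := by
      apply div_le_div_of_nonneg_right _ hn'.le
      linarith
    linarith

/-- the normalised indicators of the cells of the grid of mesh `1/m` -/
noncomputable def coarse (m : ℕ) (j : Fin m) : L2I := ((Real.sqrt m : ℝ) : ℂ) • ind (cell m j)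

lemma orthonormal_coarse {m : ℕ} (hm : 0 < m) : Orthonormal ℂ (coarse m) := by
  have hm' : (0 : ℝ) < m := by exact_mod_cast hm
  rw [orthonormal_iff_ite]
  intro j k
  unfold coarse
  rw [inner_smul_left, inner_smul_right,
    inner_ind_ind (measurableSet_cell m j) (measurableSet_cell m k), Complex.conj_ofReal]
  split_ifs with h
  · subst h
    rw [Set.inter_self, mu01_real_cell hm, ← Complex.ofReal_mul, ← Complex.ofReal_mul,
      ← mul_assoc, Real.mul_self_sqrt hm'.le]
    have : (m : ℝ) * (1 / m) = 1 := by field_simp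
    rw [this]; simp
  · have hne : (j : ℕ) ≠ (k : ℕ) := fun h' => h (Fin.ext h')
    rw [cell_disjoint hm hne]
    simp

lemma POU.comp_equiv {H : Type*} [NormedAddCommGroup H] [InnerProductSpace ℂ H] [CompleteSpace H]
    {ι ι' : Type*} [Fintype ι] [Fintype ι'] {g : ι' → H →L[ℂ] H} (hg : POU g) (σ : ι ≃ ι') :
    POU (fun l => g (σ l)) :=
  ⟨fun l => hg.proj _, fun l l' h => hg.orth _ _ (fun h' => h (σ.injective h')),
    by rw [Equiv.sum_comp σ g]; exact hg.sum_eq⟩

lemma pou_prod {m n : ℕ} (hm : 0 < m) (hn : 0 < n) :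
    POU (fun d : Fin m × Fin n => indMul (cell m d.1 ∩ cell n d.2)) := by
  refine ⟨fun d => indMul_isStarProjection
    ((measurableSet_cell m d.1).inter (measurableSet_cell n d.2)), fun d d' h => ?_, ?_⟩
  · rw [indMul_mul ((measurableSet_cell m d.1).inter (measurableSet_cell n d.2))
      ((measurableSet_cell m d'.1).inter (measurableSet_cell n d'.2))]
    have : (cell m d.1 ∩ cell n d.2) ∩ (cell m d'.1 ∩ cell n d'.2) = ∅ := by
      by_cases h1 : d.1 = d'.1
      · have h2 : d.2 ≠ d'.2 := fun h2 => h (Prod.ext h1 h2)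
        have hne : ((d.2 : Fin n) : ℕ) ≠ ((d'.2 : Fin n) : ℕ) := fun h' => h2 (Fin.ext h')
        have := cell_disjoint hn hne
        ext x
        simp only [Set.mem_inter_iff, Set.mem_empty_iff_false, iff_false]
        rintro ⟨⟨_, a⟩, ⟨_, b⟩⟩
        have hx : x ∈ cell n d.2 ∩ cell n d'.2 := ⟨a, b⟩
        rw [this] at hx
        exact hx
      · have hne : ((d.1 : Fin m) : ℕ) ≠ ((d'.1 : Fin m) : ℕ) := fun h' => h1 (Fin.ext h')
        have := cell_disjoint hm hne
        ext x
        simp only [Set.mem_inter_iff, Set.mem_empty_iff_false, iff_false]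
        rintro ⟨⟨a, _⟩, ⟨b, _⟩⟩
        have hx : x ∈ cell m d.1 ∩ cell m d'.1 := ⟨a, b⟩
        rw [this] at hx
        exact hx
    rw [this, indMul_empty]
  · rw [Fintype.sum_prod_type]
    have h1 : ∀ (j : Fin m) (k : Fin n), indMul (cell m j ∩ cell n k)
        = indMul (cell m j) * indMul (cell n k) :=
      fun j k => (indMul_mul (measurableSet_cell m j) (measurableSet_cell n k)).symm
    simp only [h1, ← Finset.mul_sum]
    rw [(pou_grid hn).sum_eq, ← Finset.sum_mul, (pou_grid hm).sum_eq, one_mul]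

lemma fineData_grid {m n : ℕ} (hm : 0 < m) (hn : 0 < n) {η : ℝ} (hη : (m : ℝ) / n ≤ η) :
    FineData indSet (coarse m) η
      (fun l : Fin (m * n) => indMul (cell m (finProdFinEquiv.symm l).1
        ∩ cell n (finProdFinEquiv.symm l).2))
      (fun l => (finProdFinEquiv.symm l).1) := by
  have hm' : (0 : ℝ) < m := by exact_mod_cast hm
  have hn' : (0 : ℝ) < n := by exact_mod_cast hn
  refine ⟨fun l => ⟨_, (measurableSet_cell m _).inter (measurableSet_cell n _), rfl⟩,
    (pou_prod hm hn).comp_equiv finProdFinEquiv.symm, fun l j h => ?_, fun l => ?_⟩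
  · unfold coarse
    rw [map_smul, indMul_ind ((measurableSet_cell m _).inter (measurableSet_cell n _))
      (measurableSet_cell m j)]
    have hne : (((finProdFinEquiv.symm l).1 : Fin m) : ℕ) ≠ (j : ℕ) := fun h' => h (Fin.ext h')
    have hd := cell_disjoint hm hne
    have : (cell m (finProdFinEquiv.symm l).1 ∩ cell n (finProdFinEquiv.symm l).2) ∩ cell m j
        = ∅ := by
      ext x
      simp only [Set.mem_inter_iff, Set.mem_empty_iff_false, iff_false]
      rintro ⟨⟨a, _⟩, b⟩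
      have hx : x ∈ cell m (finProdFinEquiv.symm l).1 ∩ cell m j := ⟨a, b⟩
      rw [hd] at hx
      exact hx
    rw [this, ind_empty, smul_zero]
  · unfold coarse
    rw [map_smul, indMul_ind ((measurableSet_cell m _).inter (measurableSet_cell n _))
      (measurableSet_cell m _), norm_smul, mul_pow, Complex.norm_real, Real.norm_eq_abs,
      sq_abs, Real.sq_sqrt hm'.le,
      norm_ind_sq (((measurableSet_cell m _).inter (measurableSet_cell n _)).inter
        (measurableSet_cell m _))]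
    have hle : mu01.real ((cell m (finProdFinEquiv.symm l).1 ∩ cell n (finProdFinEquiv.symm l).2)
        ∩ cell m (finProdFinEquiv.symm l).1) ≤ 1 / n := by
      rw [← mu01_real_cell hn (finProdFinEquiv.symm l).2]
      apply measureReal_mono _ (measure_ne_top _ _)
      intro x hx
      exact hx.1.2
    calc (m : ℝ) * mu01.real _ ≤ m * (1 / n) := mul_le_mul_of_nonneg_left hle hm'.le
      _ = m / n := by ring
      _ ≤ η := hη

end Vale.Agent.Lib.P078
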